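import Crest.Agent.R53.Win

/-! The local lemma: a uniform base family inside one class modulo density zero. -/

set_option autoImplicit false
open Set Filter Topology

namespace Crest.Agent.R53

/-- the test at scale `M` for prefix sum `s` and window excesses `c` -/
def PassB (N : ℕ → ℕ) (M : ℕ) (s : ℤ) (c : ℕ → ℤ) : Prop :=
  ∃ k : ℕ, (k = 0 ∨ ∃ n, M ≤ n ∧ (k : ℤ) * N n ≤ c n * N M) ∧ 0 < s + k ∧
    ∀ n, M ≤ n → -c n * N M < (s + k) * N n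

theorem PassB.mono {N : ℕ → ℕ} {M : ℕ} {s s' : ℤ} {c c' : ℕ → ℤ} (h : PassB N M s c)
    (hs : s ≤ s') (hc : ∀ n, M ≤ n → c n ≤ c' n) : PassB N M s' c' := by
  obtain ⟨k, h1, h2, h3⟩ := h
  refine ⟨k, h1.imp id ?_, by linarith, fun n hn => ?_⟩
  · rintro ⟨n, hn, h⟩
    exact ⟨n, hn, h.trans (mul_le_mul_of_nonneg_right (hc n hn) (by positivity))⟩
  · have := h3 n hn
    have h4 := hc n hn
    have h5 : (0 : ℤ) ≤ N M := by positivity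
    have h6 : (0 : ℤ) ≤ N n := by positivity
    nlinarith

theorem PassB.tight {N : ℕ → ℕ} (hN : Monotone N) {M : ℕ} {s s' : ℤ} {c c' : ℕ → ℤ}
    (h : PassB N M s c) (hs : s + 2 ≤ s') (hc : ∀ n, M ≤ n → c n ≤ c' n + 1) :
    PassB N M s' c' := by
  obtain ⟨k, h1, h2, h3⟩ := h
  have h5 : (0 : ℤ) ≤ N M := by positivity
  have key : ∀ n, M ≤ n → -c' n * N M < (s + k + 1) * N n := by
    intro n hn
    have := h3 n hn
    have h4 := hc n hn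
    have h6 : (N M : ℤ) ≤ N n := by exact_mod_cast hN hn
    nlinarith
  rcases k with _ | j
  · refine ⟨0, Or.inl rfl, by push_cast at h2 ⊢; linarith, fun n hn => ?_⟩
    have := key n hn
    have h6 : (0 : ℤ) ≤ N n := by positivity
    push_cast at this ⊢
    nlinarith
  · refine ⟨j, Or.inr ?_, by push_cast at h2 ⊢; linarith, fun n hn => ?_⟩
    · rcases h1 with h1 | ⟨n, hn, h1⟩
      · omega
      · refine ⟨n, hn, ?_⟩
        have h4 := hc n hn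
        have h6 : (N M : ℤ) ≤ N n := by exact_mod_cast hN hn
        push_cast at h1
        nlinarith
    · have := key n hn
      have h6 : (0 : ℤ) ≤ N n := by positivity
      push_cast at this ⊢
      nlinarith

theorem PassB.fin {N : ℕ → ℕ} {M : ℕ} {s : ℤ} {c c' : ℕ → ℤ} (h : PassB N M s c) (n₁ : ℕ)
    (hc : ∀ n, n < n₁ → c n = c' n) (hb : ∀ n, n₁ ≤ n → c n * N M < N n)
    (hb' : ∀ n, n₁ ≤ n → -c' n * N M < N n) : PassB N M s c' := by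
  obtain ⟨k, h1, h2, h3⟩ := h
  refine ⟨k, ?_, h2, fun n hn => ?_⟩
  · rcases h1 with h1 | ⟨n, hn, h1⟩
    · exact Or.inl h1
    · by_cases hn1 : n < n₁
      · exact Or.inr ⟨n, hn, hc n hn1 ▸ h1⟩
      · left
        have := hb n (not_lt.1 hn1)
        by_contra hk
        have h7 : (1 : ℤ) ≤ k := by exact_mod_cast Nat.one_le_iff_ne_zero.2 hk
        have h6 : (0 : ℤ) ≤ N n := by positivity
        nlinarith
  · by_cases hn1 : n < n₁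
    · exact hc n hn1 ▸ h3 n hn
    · have := hb' n (not_lt.1 hn1)
      have h6 : (0 : ℤ) ≤ N n := by positivity
      nlinarith

theorem exists_jump {G : Type} {Sp : Set G → Prop} (hm : ∀ Y Z, Y ⊆ Z → Sp Y → Sp Z)
    {Y : Set G} (hY : ¬ Sp Y) {T : Set G} (hT : T.Finite) (h : Sp (Y ∪ T)) :
    ∃ B, Y ⊆ B ∧ B ⊆ Y ∪ T ∧ Sp B ∧ ∃ e ∈ B, ¬ Sp (B \ {e}) := by
  induction T, hT using Set.Finite.induction_on with
  | empty => exact absurd (by simpa using h) hY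
  | @insert e T _ _ ih =>
    by_cases h' : Sp (Y ∪ T)
    · obtain ⟨B, h1, h2, h3⟩ := ih h'
      exact ⟨B, h1, h2.trans (union_subset_union_right _ (subset_insert _ _)), h3⟩
    · refine ⟨_, subset_union_left, Subset.rfl, h, e, Or.inr (mem_insert _ _), fun hs => h' ?_⟩
      refine hm _ _ ?_ hs
      rintro x ⟨hx | hx | hx, hx'⟩
      · exact Or.inl hx
      · exact absurd hx hx'
      · exact Or.inr hx

namespace Win
variable {G : Type} (Ω : Win G) (X : Set G)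

/-- window excess over the representative `X` -/
noncomputable def c (Y : Set G) (n : ℕ) : ℤ := (Ω.cnt Y n : ℤ) - Ω.cnt X n

/-- prefix sum of the excesses -/
noncomputable def σ (Y : Set G) (M : ℕ) : ℤ := ∑ n ∈ Finset.range M, Ω.c X Y n

/-- test at scale `M` -/
def Pass (M : ℕ) (Y : Set G) : Prop := PassB Ω.N M (Ω.σ X Y M) (Ω.c X Y)

/-- spanning sets of the class -/
def Sp (Y : Set G) : Prop := ∃ᶠ M in atTop, Ω.Pass X M Y

variable {X}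

theorem c_mono {Y Z : Set G} (h : Y ⊆ Z) (n : ℕ) : Ω.c X Y n ≤ Ω.c X Z n := by
  unfold c
  have := Ω.cnt_mono h n
  omega

theorem σ_mono {Y Z : Set G} (h : Y ⊆ Z) (M : ℕ) : Ω.σ X Y M ≤ Ω.σ X Z M :=
  Finset.sum_le_sum fun n _ => Ω.c_mono h n

theorem Pass.mono {M : ℕ} {Y Z : Set G} (h : Y ⊆ Z) (hY : Ω.Pass X M Y) : Ω.Pass X M Z :=
  PassB.mono hY (Ω.σ_mono h M) fun n _ => Ω.c_mono h n

theorem Sp.mono {Y Z : Set G} (h : Y ⊆ Z) (hY : Ω.Sp X Y) : Ω.Sp X Z :=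
  Frequently.mono hY fun _ hM => Pass.mono Ω h hM

theorem c_insert {Y : Set G} {e : G} (he : e ∉ Y) (n : ℕ) :
    Ω.c X (insert e Y) n = Ω.c X Y n + if Ω.w e = n then 1 else 0 := by
  unfold c
  rw [← union_singleton, Ω.cnt_union_disj (disjoint_singleton_right.2 he), Ω.cnt_singleton]
  split_ifs <;> push_cast <;> ring

theorem σ_insert {Y : Set G} {e : G} (he : e ∉ Y) (M : ℕ) :
    Ω.σ X (insert e Y) M = Ω.σ X Y M + if Ω.w e < M then 1 else 0 := by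
  unfold σ
  simp only [Ω.c_insert he, Finset.sum_add_distrib, Finset.sum_ite_eq, Finset.mem_range]

theorem sp_swap {S : Set G} {e f : G} (he : e ∉ S) (hf : f ∉ S) (h : Ω.Sp X (insert e S)) :
    Ω.Sp X (insert f S) := by
  refine (h.and_eventually ((eventually_gt_atTop (Ω.w e)).and (eventually_gt_atTop (Ω.w f)))).mono ?_
  rintro M ⟨h1, h2, h3⟩
  refine PassB.mono h1 ?_ fun n hn => ?_
  · rw [Ω.σ_insert he, Ω.σ_insert hf, if_pos h2, if_pos h3]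
  · rw [Ω.c_insert he, Ω.c_insert hf, if_neg (by omega), if_neg (by omega)]

theorem sp_sdiff_swap {B : Set G} {e f : G} (he : e ∈ B) (hf : f ∈ B) (h : Ω.Sp X (B \ {e})) :
    Ω.Sp X (B \ {f}) := by
  by_cases hef : e = f
  · exact hef ▸ h
  have h1 : B \ {e} = insert f (B \ {e, f}) := by
    ext x
    simp only [Set.mem_sdiff, mem_singleton_iff, mem_insert_iff]
    constructor
    · tauto
    · rintro (rfl | h)
      · exact ⟨hf, Ne.symm hef⟩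
      · tauto
  have h2 : B \ {f} = insert e (B \ {e, f}) := by
    ext x
    simp only [Set.mem_sdiff, mem_singleton_iff, mem_insert_iff]
    constructor
    · tauto
    · rintro (rfl | h)
      · exact ⟨he, hef⟩
      · tauto
  rw [h2]
  rw [h1] at h
  exact Ω.sp_swap (by simp) (by simp) h

theorem c_le (Y : Set G) (n : ℕ) : Ω.c X Y n ≤ Ω.cnt (Y \ X) n := by
  unfold c
  have := Ω.cnt_le_add X Y n
  omega

theorem neg_c_le (Y : Set G) (n : ℕ) : -Ω.c X Y n ≤ Ω.cnt (X \ Y) n := by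
  unfold c
  have := Ω.cnt_le_add Y X n
  omega

theorem Null.ev {Z : Set G} (h : Ω.Null Z) (M : ℕ) :
    ∀ᶠ n in atTop, (Ω.cnt Z n : ℤ) * Ω.N M < Ω.N n := by
  have h1 : (0 : ℝ) < 1 / Ω.N M := by have := Ω.Npos M; positivity
  filter_upwards [h.eventually (gt_mem_nhds h1)] with n hn
  rw [div_lt_div_iff₀ (Ω.Npos n) (Ω.Npos M), one_mul] at hn
  exact_mod_cast hn

theorem fin_dep {I₀ X₀ : Set G} (h1 : Le Ω.F X I₀) (h2 : Le Ω.F X₀ X) (M : ℕ) :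
    ∃ n₁, ∀ Y Y', I₀ ⊆ Y' → Y ⊆ X₀ → (∀ x, Ω.w x < n₁ → (x ∈ Y ↔ x ∈ Y')) →
      Ω.Pass X M Y → Ω.Pass X M Y' := by
  obtain ⟨n₁, hn₁⟩ := eventually_atTop.1
    ((Null.ev Ω (Ω.le_iff.1 h1) M).and (Null.ev Ω (Ω.le_iff.1 h2) M))
  refine ⟨max n₁ M, fun Y Y' hY' hY h hp => ?_⟩
  have hc : ∀ n, n < max n₁ M → Ω.c X Y n = Ω.c X Y' n := by
    intro n hn
    unfold c
    rw [Ω.cnt_congr fun x hx => h x (hx ▸ hn)]
  have hσ : Ω.σ X Y M = Ω.σ X Y' M :=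
    Finset.sum_congr rfl fun n hn => hc n ((Finset.mem_range.1 hn).trans_le (le_max_right _ _))
  unfold Pass
  rw [← hσ]
  have h5 : (0 : ℤ) ≤ Ω.N M := by positivity
  refine PassB.fin hp (max n₁ M) hc (fun n hn => ?_) (fun n hn => ?_)
  · have := (hn₁ n ((le_max_left _ _).trans hn)).2
    have h3 := (Ω.c_mono (X := X) hY n).trans (Ω.c_le X₀ n)
    nlinarith
  · have := (hn₁ n ((le_max_left _ _).trans hn)).1
    have h3 := Ω.neg_c_le (X := X) I₀ n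
    have h4 := Ω.c_mono (X := X) hY' n
    nlinarith

theorem fin_lt (n : ℕ) : {x | Ω.w x < n}.Finite := by
  refine (Finite.biUnion (finite_lt_nat n) fun m _ => (Ω.W m).finite_toSet).subset ?_
  intro x hx
  exact mem_biUnion hx ((Ω.mem_W _ _).2 rfl)

theorem jump {I₀ X₀ : Set G} (hIX : I₀ ⊆ X₀) (h1 : Le Ω.F X I₀) (h2 : Le Ω.F X₀ X)
    (hI : ¬ Ω.Sp X I₀) (hX : Ω.Sp X X₀) :
    ∃ B, I₀ ⊆ B ∧ B ⊆ X₀ ∧ Ω.Sp X B ∧ ∃ e ∈ B, ¬ Ω.Sp X (B \ {e}) := by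
  obtain ⟨N₀, hN₀⟩ := eventually_atTop.1 (not_frequently.1 hI)
  obtain ⟨Y, hIY, hY⟩ := zorn_subset_nonempty
    {Y | I₀ ⊆ Y ∧ Y ⊆ X₀ ∧ ∀ M, N₀ ≤ M → ¬ Ω.Pass X M Y} (by
      intro C hC hch hne
      obtain ⟨Y₀, hY₀⟩ := id hne
      refine ⟨⋃₀ C, ⟨(hC hY₀).1.trans (subset_sUnion_of_mem hY₀),
        sUnion_subset fun Y hY => (hC hY).2.1, fun M hM hp => ?_⟩,
        fun s hs => subset_sUnion_of_mem hs⟩
      obtain ⟨n₁, hn₁⟩ := Ω.fin_dep h1 h2 M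
      obtain ⟨Y', hY', hsub⟩ := hch.directedOn.exists_mem_subset_of_finite_of_subset_sUnion hne
        ((Ω.fin_lt n₁).inter_of_left (⋃₀ C)) inter_subset_right
      refine (hC hY').2.2 M hM (hn₁ _ Y' (hC hY').1 (sUnion_subset fun Y hY => (hC hY).2.1) ?_ hp)
      exact fun x hx => ⟨fun h => hsub ⟨hx, h⟩, fun h => ⟨Y', hY', h⟩⟩) I₀
    ⟨Subset.rfl, hIX, hN₀⟩
  have hYX : Y ⊆ X₀ := hY.1.2.1
  have hnY : ¬ Ω.Sp X Y := not_frequently.2 (eventually_atTop.2 ⟨N₀, hY.1.2.2⟩)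
  have hT : ∃ T : Set G, T.Finite ∧ T ⊆ X₀ ∧ Ω.Sp X (Y ∪ T) := by
    by_cases hfin : (X₀ \ Y).Finite
    · exact ⟨_, hfin, sdiff_subset, by rwa [union_sdiff_cancel hYX]⟩
    have hinf : (X₀ \ Y).Infinite := hfin
    obtain ⟨e₁, he₁⟩ := hinf.nonempty
    obtain ⟨e₂, he₂, h21⟩ := hinf.exists_notMem_finite (finite_singleton e₁)
    obtain ⟨e₃, he₃, h31⟩ := hinf.exists_notMem_finite ((finite_singleton e₁).insert e₂)
    refine ⟨{e₃, e₂, e₁}, toFinite _, ?_, ?_⟩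
    · rintro x (rfl | rfl | rfl)
      exacts [he₃.1, he₂.1, he₁.1]
    have hYe : Y ∪ {e₃, e₂, e₁} = insert e₃ (insert e₂ (insert e₁ Y)) := by
      ext x
      simp only [mem_union, mem_insert_iff, mem_singleton_iff]
      tauto
    have n1 : e₁ ∉ Y := he₁.2
    have n2 : e₂ ∉ insert e₁ Y := by
      rintro (h | h)
      exacts [h21 h, he₂.2 h]
    have n3 : e₃ ∉ insert e₂ (insert e₁ Y) := by
      rintro (h | h | h)
      exacts [h31 (Or.inl h), h31 (Or.inr h), he₃.2 h]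
    rw [hYe]
    refine frequently_atTop.2 fun M₀ => ?_
    set M₁ := max (max M₀ (Ω.w e₁ + 1)) (max (Ω.w e₂ + 1) (Ω.w e₃ + 1)) with hM₁
    choose n₁ hn₁ using Ω.fin_dep h1 h2
    obtain ⟨e, he, hew⟩ := hinf.exists_notMem_finite
      (Ω.fin_lt ((Finset.range M₁).sup n₁))
    have hex : ∃ M, N₀ ≤ M ∧ Ω.Pass X M (insert e Y) := by
      by_contra hcon
      push Not at hcon
      have := hY.2 (y := insert e Y)
        ⟨hIY.trans (subset_insert _ _), insert_subset he.1 hYX, hcon⟩ (subset_insert _ _)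
      exact he.2 (this (mem_insert _ _))
    obtain ⟨M, hM, hp⟩ := hex
    have hMM : M₁ ≤ M := by
      by_contra hlt
      have hle : n₁ M ≤ (Finset.range M₁).sup n₁ :=
        Finset.le_sup (f := n₁) (Finset.mem_range.2 (not_le.1 hlt))
      refine hY.1.2.2 M hM (hn₁ M _ Y hIY (insert_subset he.1 hYX) (fun x hx => ?_) hp)
      refine ⟨?_, fun h => Or.inr h⟩
      rintro (rfl | h)
      · exact absurd (hx.trans_le hle) hew
      · exact h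
    refine ⟨M, by omega, PassB.tight Ω.mono hp ?_ fun n hn => ?_⟩
    · rw [Ω.σ_insert n3, Ω.σ_insert n2, Ω.σ_insert n1, Ω.σ_insert he.2,
        if_pos (show Ω.w e₁ < M by omega), if_pos (show Ω.w e₂ < M by omega),
        if_pos (show Ω.w e₃ < M by omega)]
      split_ifs <;> omega
    · have := Ω.c_mono (X := X) ((subset_insert e₁ Y).trans ((subset_insert e₂ _).trans
        (subset_insert e₃ _))) n
      rw [Ω.c_insert he.2]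
      split_ifs <;> omega
  obtain ⟨T, hT1, hT2, hT3⟩ := hT
  obtain ⟨B, b1, b2, b3⟩ := exists_jump (fun _ _ h => Sp.mono Ω h) hnY hT1 hT3
  exact ⟨B, hIY.trans b1, b2.trans (union_subset hYX hT2), b3⟩

theorem abs_σ_le (Y : Set G) (M : ℕ) :
    |(Ω.σ X Y M : ℝ)| ≤ ∑ m ∈ Finset.range M, ((Ω.W m).card : ℝ) := by
  unfold σ
  push_cast
  refine (Finset.abs_sum_le_sum_abs _ _).trans (Finset.sum_le_sum fun n _ => ?_)
  unfold c
  have h1 : (Ω.cnt Y n : ℝ) ≤ (Ω.W n).card := by exact_mod_cast Ω.cnt_le Y n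
  have h2 : (Ω.cnt X n : ℝ) ≤ (Ω.W n).card := by exact_mod_cast Ω.cnt_le X n
  have h3 : (0 : ℝ) ≤ Ω.cnt Y n := by positivity
  have h4 : (0 : ℝ) ≤ Ω.cnt X n := by positivity
  push_cast
  rw [abs_le]
  constructor <;> linarith

theorem exists_gamma {Y : Set G} (h1 : Le Ω.F X Y) (h2 : Le Ω.F Y X) :
    ∃ γ : ℕ → ℝ, Tendsto γ atTop (𝓝 0) ∧ (∀ M, 0 ≤ γ M) ∧
      ∀ M n, M ≤ n → (Ω.c X Y n : ℝ) ≤ γ M * Ω.N n ∧ -(Ω.c X Y n : ℝ) ≤ γ M * Ω.N n := by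
  have := Tendsto.add (Ω.le_iff.1 h1) (Ω.le_iff.1 h2)
  rw [add_zero] at this
  obtain ⟨γ, g1, g2, g3⟩ := exists_env this
  refine ⟨γ, g1, g2, fun M n hn => ?_⟩
  have := g3 M n hn
  rw [← add_div, div_le_iff₀ (Ω.Npos n)] at this
  have a1 : (Ω.c X Y n : ℝ) ≤ Ω.cnt (Y \ X) n := by exact_mod_cast Ω.c_le Y n
  have a2 : -(Ω.c X Y n : ℝ) ≤ Ω.cnt (X \ Y) n := by exact_mod_cast Ω.neg_c_le Y n
  have h3 : (0 : ℝ) ≤ Ω.cnt (Y \ X) n := by positivity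
  have h4 : (0 : ℝ) ≤ Ω.cnt (X \ Y) n := by positivity
  constructor <;> linarith

theorem c_union {Y Z : Set G} (h : Disjoint Y Z) (n : ℕ) :
    (Ω.c X (Y ∪ Z) n : ℝ) = Ω.c X Y n + Ω.cnt Z n := by
  unfold c
  rw [Ω.cnt_union_disj h]
  push_cast
  ring

theorem exists_sp {Y D : Set G} (h1 : Le Ω.F X Y) (h2 : Le Ω.F Y X) (hd : Disjoint Y D)
    (hD : ¬ Ω.Null D) : ∃ Z ⊆ D, Ω.Null Z ∧ Ω.Sp X (Y ∪ Z) := by
  obtain ⟨γ, g1, g2, g3⟩ := Ω.exists_gamma h1 h2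
  have hδ := (g1.add g1).add Ω.grow
  simp only [add_zero] at hδ
  obtain ⟨Z, hZD, hZ, hev⟩ := Ω.diag hD hδ
  refine ⟨Z, hZD, hZ, (hev.mono ?_).frequently⟩
  rintro M ⟨n, hn, hc⟩
  set L : ℝ := ∑ m ∈ Finset.range M, ((Ω.W m).card : ℝ) with hL
  have hL0 : 0 ≤ L := Finset.sum_nonneg fun _ _ => Nat.cast_nonneg _
  have hNM := Ω.Npos M
  have hσ := abs_le.1 (Ω.abs_σ_le (X := X) (Y ∪ Z) M)
  rw [← hL] at hσ
  have hx0 : 0 ≤ L + γ M * Ω.N M := add_nonneg hL0 (mul_nonneg (g2 M) hNM.le)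
  set k : ℕ := ⌊L + γ M * Ω.N M⌋₊ + 1 with hk
  have k1 : L + γ M * Ω.N M < k := by
    rw [hk]; push_cast; exact Nat.lt_floor_add_one _
  have k2 : (k : ℝ) ≤ L + γ M * Ω.N M + 1 := by
    rw [hk]; push_cast; linarith [Nat.floor_le hx0]
  have hdz : Disjoint Y Z := hd.mono_right hZD
  have hγN : 0 ≤ γ M * Ω.N M := mul_nonneg (g2 M) hNM.le
  refine ⟨k, Or.inr ⟨n, hn, ?_⟩, ?_, fun m hm => ?_⟩
  · have hNn := Ω.Npos n
    have e1 : (k : ℝ) * Ω.N n ≤ (Ω.c X (Y ∪ Z) n : ℝ) * Ω.N M := by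
      rw [Ω.c_union hdz]
      have a1 := (g3 M n hn).2
      have a2 : (γ M + (L + 1) / Ω.N M) * Ω.N n ≤ (Ω.c X Y n : ℝ) + Ω.cnt Z n := by
        linarith
      calc (k : ℝ) * Ω.N n ≤ (L + γ M * Ω.N M + 1) * Ω.N n :=
            mul_le_mul_of_nonneg_right k2 hNn.le
        _ = ((γ M + (L + 1) / Ω.N M) * Ω.N n) * Ω.N M := by field_simp; ring
        _ ≤ _ := mul_le_mul_of_nonneg_right a2 hNM.le
    exact_mod_cast e1
  · have : (0 : ℝ) < (Ω.σ X (Y ∪ Z) M : ℝ) + k := by linarith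
    exact_mod_cast this
  · have hNm := Ω.Npos m
    have e1 : -(Ω.c X (Y ∪ Z) m : ℝ) * Ω.N M < ((Ω.σ X (Y ∪ Z) M : ℝ) + k) * Ω.N m := by
      rw [Ω.c_union hdz]
      have a1 := (g3 M m hm).2
      have a2 : (0 : ℝ) ≤ Ω.cnt Z m := by positivity
      calc -((Ω.c X Y m : ℝ) + Ω.cnt Z m) * Ω.N M ≤ (γ M * Ω.N m) * Ω.N M :=
            mul_le_mul_of_nonneg_right (by linarith) hNM.le
        _ = (γ M * Ω.N M) * Ω.N m := by ring
        _ < _ := mul_lt_mul_of_pos_right (by linarith) hNm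
    exact_mod_cast e1

theorem exists_not_sp {Y D : Set G} (h1 : Le Ω.F X Y) (h2 : Le Ω.F Y X) (hd : D ⊆ Y)
    (hD : ¬ Ω.Null D) : ∃ Z ⊆ D, Ω.Null Z ∧ ¬ Ω.Sp X (Y \ Z) := by
  obtain ⟨γ, g1, g2, g3⟩ := Ω.exists_gamma h1 h2
  have hδ := (g1.add g1).add Ω.grow
  simp only [add_zero] at hδ
  obtain ⟨Z, hZD, hZ, hev⟩ := Ω.diag hD hδ
  refine ⟨Z, hZD, hZ, not_frequently.2 (hev.mono ?_)⟩
  rintro M ⟨n, hn, hc⟩ ⟨k, p1, p2, p3⟩
  set L : ℝ := ∑ m ∈ Finset.range M, ((Ω.W m).card : ℝ) with hL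
  have hNM := Ω.Npos M
  have hσ := abs_le.1 (Ω.abs_σ_le (X := X) (Y \ Z) M)
  rw [← hL] at hσ
  have hγN : 0 ≤ γ M * Ω.N M := mul_nonneg (g2 M) hNM.le
  have hcu : ∀ m, (Ω.c X Y m : ℝ) = Ω.c X (Y \ Z) m + Ω.cnt Z m := by
    intro m
    rw [← Ω.c_union disjoint_sdiff_left, sdiff_union_of_subset (hZD.trans hd)]
  have k1 : (k : ℝ) ≤ γ M * Ω.N M := by
    rcases p1 with rfl | ⟨m, hm, p1⟩
    · simpa using hγN
    · have hNm := Ω.Npos m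
      have e1 : (k : ℝ) * Ω.N m ≤ (Ω.c X (Y \ Z) m : ℝ) * Ω.N M := by exact_mod_cast p1
      have a1 := (g3 M m hm).1
      have a2 : (0 : ℝ) ≤ Ω.cnt Z m := by positivity
      have a3 := hcu m
      have e2 : (k : ℝ) * Ω.N m ≤ (γ M * Ω.N M) * Ω.N m :=
        calc _ ≤ _ := e1
          _ ≤ (γ M * Ω.N m) * Ω.N M := mul_le_mul_of_nonneg_right (by linarith) hNM.le
          _ = _ := by ring
      exact le_of_mul_le_mul_right e2 hNm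
  have hNn := Ω.Npos n
  have e1 : -(Ω.c X (Y \ Z) n : ℝ) * Ω.N M < ((Ω.σ X (Y \ Z) M : ℝ) + k) * Ω.N n := by
    exact_mod_cast p3 n hn
  have a1 := (g3 M n hn).1
  have a3 := hcu n
  have a2 : (γ M + (L + 1) / Ω.N M) * Ω.N n ≤ -(Ω.c X (Y \ Z) n : ℝ) := by linarith
  have e2 : (L + γ M * Ω.N M + 1) * Ω.N n ≤ -(Ω.c X (Y \ Z) n : ℝ) * Ω.N M :=
    calc _ = ((γ M + (L + 1) / Ω.N M) * Ω.N n) * Ω.N M := by field_simp; ring
      _ ≤ _ := mul_le_mul_of_nonneg_right a2 hNM.le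
  have e3 : ((Ω.σ X (Y \ Z) M : ℝ) + k) * Ω.N n ≤ (L + γ M * Ω.N M + 1) * Ω.N n :=
    mul_le_mul_of_nonneg_right (by linarith) hNn.le
  linarith

theorem ev_ne (e : G) : ∀ᶠ x in Ω.F, x ≠ e := by
  rw [Filter.Eventually, mem_F]
  have : {x | x ≠ e}ᶜ = {e} := by ext x; simp
  rw [this]
  refine tendsto_const_nhds.congr' ?_
  filter_upwards [eventually_gt_atTop (Ω.w e)] with n hn
  rw [Ω.cnt_singleton, if_neg hn.ne]
  simp

theorem null_iff {Z : Set G} : Ω.Null Z ↔ ∀ᶠ x in Ω.F, x ∉ Z := by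
  rw [Filter.Eventually, mem_F]
  have : {x | x ∉ Z}ᶜ = Z := by ext x; simp
  rw [this]

/-- **Local lemma.** -/
theorem exists_local (X : Set G) (hX : ¬ Ω.Null X) (hXc : ¬ Ω.Null Xᶜ) :
    ∃ 𝓑 : Set (Set G), (∀ B ∈ 𝓑, Le Ω.F B X ∧ Le Ω.F X B) ∧
      (∀ B ∈ 𝓑, ∀ B' ∈ 𝓑, B ⊆ B' → B = B') ∧
      (∀ B ∈ 𝓑, ∀ e ∈ B, ∀ f, f ∉ B → insert f (B \ {e}) ∈ 𝓑) ∧
      ∀ I X' : Set G, I ⊆ X' → Le Ω.F I X → Le Ω.F X X' →
        ∃ B ∈ 𝓑, B ⊆ I ∨ X' ⊆ B ∨ (I ⊆ B ∧ B ⊆ X') := by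
  refine ⟨{B | (Le Ω.F B X ∧ Le Ω.F X B) ∧ Ω.Sp X B ∧ ∃ e ∈ B, ¬ Ω.Sp X (B \ {e})},
    fun B hB => hB.1, ?_, ?_, ?_⟩
  · rintro B ⟨-, hB, -⟩ B' ⟨-, -, e, he, hne⟩ hs
    by_contra hn
    obtain ⟨f, hf, hf'⟩ := not_subset.1 fun h => hn (Subset.antisymm hs h)
    refine hne (Ω.sp_sdiff_swap hf he (Sp.mono Ω ?_ hB))
    exact fun x hx => ⟨hs hx, fun h => hf' ((mem_singleton_iff.1 h) ▸ hx)⟩
  · rintro B ⟨⟨b1, b2⟩, hB, e', he', hne⟩ e he f hf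
    refine ⟨⟨?_, ?_⟩, ?_, f, mem_insert _ _, fun h => hne (Ω.sp_sdiff_swap he he' ?_)⟩
    · filter_upwards [b1, Ω.ev_ne f] with x h1 h2 hx
      rcases hx with hx | hx
      · exact absurd hx h2
      · exact h1 hx.1
    · filter_upwards [b2, Ω.ev_ne e] with x h1 h2 hx
      exact Or.inr ⟨h1 hx, h2⟩
    · refine Ω.sp_swap (e := e) (by simp) (fun h => hf h.1) ?_
      rwa [insert_sdiff_singleton, insert_eq_of_mem he]
    · refine Sp.mono Ω ?_ h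
      rintro x ⟨hx | hx, hx'⟩
      · exact absurd hx hx'
      · exact hx
  have jump' : ∀ I₀ X₀ : Set G, I₀ ⊆ X₀ → Le Ω.F X I₀ → Le Ω.F X₀ X → ¬ Ω.Sp X I₀ → Ω.Sp X X₀ →
      ∃ B ∈ {B | (Le Ω.F B X ∧ Le Ω.F X B) ∧ Ω.Sp X B ∧ ∃ e ∈ B, ¬ Ω.Sp X (B \ {e})},
        I₀ ⊆ B ∧ B ⊆ X₀ := by
    intro I₀ X₀ h0 h1 h2 h3 h4
    obtain ⟨B, b1, b2, b3⟩ := Ω.jump h0 h1 h2 h3 h4
    exact ⟨B, ⟨⟨(Le.of_subset b2).trans h2, h1.trans (Le.of_subset b1)⟩, b3⟩, b1, b2⟩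
  have up : ∀ Y X' : Set G, Y ⊆ X' → Le Ω.F X Y → Le Ω.F Y X → ¬ Le Ω.F X' X →
      ∃ X₀, Y ⊆ X₀ ∧ X₀ ⊆ X' ∧ Le Ω.F X₀ X ∧ Ω.Sp X X₀ := by
    intro Y X' h0 h1 h2 h3
    obtain ⟨Z, z1, z2, z3⟩ := Ω.exists_sp h1 h2 (D := X' \ Y) disjoint_sdiff_right
      (fun h => h3 ((Ω.le_iff.2 h).trans h2))
    refine ⟨Y ∪ Z, subset_union_left, union_subset h0 (z1.trans sdiff_subset), ?_, z3⟩
    filter_upwards [h2, Ω.null_iff.1 z2] with x a1 a2 hx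
    exact a1 (hx.resolve_right a2)
  have down : ∀ I Y : Set G, I ⊆ Y → Le Ω.F X Y → Le Ω.F Y X → ¬ Le Ω.F X I →
      ∃ I₀, I ⊆ I₀ ∧ I₀ ⊆ Y ∧ Le Ω.F X I₀ ∧ ¬ Ω.Sp X I₀ := by
    intro I Y h0 h1 h2 h3
    obtain ⟨Z, z1, z2, z3⟩ := Ω.exists_not_sp h1 h2 (D := Y \ I) sdiff_subset
      (fun h => h3 (h1.trans (Ω.le_iff.2 h)))
    refine ⟨Y \ Z, fun x hx => ⟨h0 hx, fun h => (z1 h).2 hx⟩, sdiff_subset, ?_, z3⟩
    filter_upwards [h1, Ω.null_iff.1 z2] with x a1 a2 hx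
    exact ⟨a1 hx, a2⟩
  have hu : ¬ Le Ω.F univ X := by
    rw [Ω.le_iff, ← compl_eq_univ_sdiff]; exact hXc
  have he : ¬ Le Ω.F X ∅ := by
    rw [Ω.le_iff, sdiff_empty]; exact hX
  intro I X' hIX hI hX'
  set Y := I ∪ (X ∩ X') with hY
  have y1 : I ⊆ Y := subset_union_left
  have y2 : Y ⊆ X' := union_subset hIX inter_subset_right
  have y3 : Le Ω.F X Y := by
    filter_upwards [hX'] with x a hx using Or.inr ⟨hx, a hx⟩
  have y4 : Le Ω.F Y X := by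
    filter_upwards [hI] with x a hx
    rcases hx with hx | hx
    exacts [a hx, hx.1]
  by_cases c1 : Le Ω.F X' X ∧ ¬ Ω.Sp X X'
  · obtain ⟨X₀, a1, -, a3, a4⟩ := up X' univ (subset_univ _) hX' c1.1 hu
    obtain ⟨B, b1, b2, -⟩ := jump' X' X₀ a1 hX' a3 c1.2 a4
    exact ⟨B, b1, Or.inr (Or.inl b2)⟩
  by_cases c2 : Le Ω.F X I ∧ Ω.Sp X I
  · obtain ⟨I₀, -, a2, a3, a4⟩ := down ∅ I (empty_subset _) c2.1 hI he
    obtain ⟨B, b1, -, b3⟩ := jump' I₀ I a2 a3 hI a4 c2.2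
    exact ⟨B, b1, Or.inl b3⟩
  have d1 : ∃ X₀, Y ⊆ X₀ ∧ X₀ ⊆ X' ∧ Le Ω.F X₀ X ∧ Ω.Sp X X₀ := by
    by_cases h : Le Ω.F X' X
    · exact ⟨X', y2, Subset.rfl, h, by tauto⟩
    · exact up Y X' y2 y3 y4 h
  have d2 : ∃ I₀, I ⊆ I₀ ∧ I₀ ⊆ Y ∧ Le Ω.F X I₀ ∧ ¬ Ω.Sp X I₀ := by
    by_cases h : Le Ω.F X I
    · exact ⟨I, Subset.rfl, y1, h, by tauto⟩
    · exact down I Y y1 y3 y4 h
  obtain ⟨X₀, a1, a2, a3, a4⟩ := d1
  obtain ⟨I₀, e1, e2, e3, e4⟩ := d2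
  obtain ⟨B, b1, b2, b3⟩ := jump' I₀ X₀ (e2.trans a1) e3 a3 e4 a4
  exact ⟨B, b1, Or.inr (Or.inr ⟨e1.trans b2, b3.trans a2⟩)⟩

end Win

end Crest.Agent.R53
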