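import Crest.Agent.R53.Win

/-! A concrete window system whose density zero ideal has the splitting property. -/

set_option autoImplicit false
open Set Filter Topology Cardinal

namespace Crest.Agent.R53

/-- points of the concrete window system -/
abbrev Pt : Type := Σ n : ℕ, ((Fin n → Bool) → Bool)

theorem grow_aux :
    Tendsto (fun n : ℕ => ((∑ m ∈ Finset.range n, ((2 ^ 2 ^ m : ℕ) : ℝ)) + 1) / (2 ^ 2 ^ n : ℕ))
      atTop (𝓝 0) := by
  have h1 : ∀ n : ℕ, (∑ m ∈ Finset.range (n + 1), 2 ^ 2 ^ m) + 1 ≤ 2 * 2 ^ 2 ^ n := by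
    intro n
    induction n with
    | zero => simp
    | succ n ih =>
      rw [Finset.sum_range_succ]
      have : 2 * 2 ^ 2 ^ n ≤ 2 ^ 2 ^ (n + 1) := by
        rw [← pow_succ']
        apply Nat.pow_le_pow_right (by norm_num)
        have : 1 ≤ 2 ^ n := Nat.one_le_two_pow
        rw [pow_succ]
        omega
      omega
  rw [← tendsto_add_atTop_iff_nat 1]
  have h2 : Tendsto (fun n : ℕ => (2 : ℝ) * (1 / 2) ^ n) atTop (𝓝 0) := by
    have := (tendsto_pow_atTop_nhds_zero_of_lt_one (r := (1 / 2 : ℝ)) (by norm_num)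
      (by norm_num)).const_mul 2
    simpa using this
  refine squeeze_zero (fun n => by positivity) (fun n => ?_) h2
  have h3 : ((∑ m ∈ Finset.range (n + 1), ((2 ^ 2 ^ m : ℕ) : ℝ)) + 1) ≤ 2 * 2 ^ 2 ^ n := by
    exact_mod_cast h1 n
  have h4 : ((2 ^ 2 ^ (n + 1) : ℕ) : ℝ) = 2 ^ 2 ^ n * 2 ^ 2 ^ n := by
    push_cast
    rw [← pow_add, pow_succ, mul_two]
  have h5 : (2 : ℝ) ^ n ≤ 2 ^ 2 ^ n :=
    pow_le_pow_right₀ (by norm_num) (Nat.lt_two_pow_self).le
  rw [h4, div_le_iff₀ (by positivity)]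
  refine h3.trans ?_
  rw [one_div, inv_pow, mul_assoc]
  refine mul_le_mul_of_nonneg_left ?_ (by norm_num)
  rw [← mul_assoc]
  refine le_mul_of_one_le_left (by positivity) ?_
  rw [inv_mul_eq_div, one_le_div (by positivity)]
  exact h5

/-- the concrete window system -/
def Ω₁ : Win Pt where
  w := Sigma.fst
  W n := Finset.univ.map (Function.Embedding.sigmaMk n)
  mem_W n x := by
    rcases x with ⟨m, f⟩
    simp only [Finset.mem_map, Finset.mem_univ, true_and, Function.Embedding.sigmaMk_apply]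
    constructor
    · rintro ⟨g, hg⟩
      exact (congrArg Sigma.fst hg).symm
    · rintro rfl
      exact ⟨f, rfl⟩
  N n := 2 ^ 2 ^ n
  pos n := by positivity
  mono := fun _ _ h => Nat.pow_le_pow_right (by norm_num) (Nat.pow_le_pow_right (by norm_num) h)
  grow := by
    simpa using grow_aux

open Classical in
theorem cnt_Ω₁ (Z : Set Pt) (n : ℕ) :
    Ω₁.cnt Z n = (Finset.univ.filter fun f : (Fin n → Bool) → Bool => (⟨n, f⟩ : Pt) ∈ Z).card := by
  unfold Win.cnt
  simp only [Ω₁]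
  rw [Finset.filter_map, Finset.card_map]
  rfl

theorem not_null_univ : ¬ Ω₁.Null univ := by
  intro h
  have : (fun n => (Ω₁.cnt univ n : ℝ) / Ω₁.N n) = fun _ => 1 := by
    funext n
    rw [cnt_Ω₁, div_eq_one_iff_eq (Ω₁.Npos n).ne']
    simp [Ω₁]
  unfold Win.Null at h
  rw [this] at h
  simpa using tendsto_nhds_unique h tendsto_const_nhds

theorem card_fix {ι : Type} [Fintype ι] [DecidableEq ι] (S : Finset ι) (b : Bool)
    [DecidablePred fun f : ι → Bool => ∀ s ∈ S, f s = b] :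
    (Finset.univ.filter fun f : ι → Bool => ∀ s ∈ S, f s = b).card * 2 ^ S.card =
      2 ^ Fintype.card ι := by
  have : (Finset.univ.filter fun f : ι → Bool => ∀ s ∈ S, f s = b) =
      Fintype.piFinset fun s => if s ∈ S then {b} else Finset.univ := by
    ext f
    simp only [Finset.mem_filter, Finset.mem_univ, true_and, Fintype.mem_piFinset]
    refine forall_congr' fun s => ?_
    split_ifs with h <;> simp [h]
  rw [this, Fintype.card_piFinset]
  have h2 : ∀ s, (if s ∈ S then ({b} : Finset Bool) else Finset.univ).card =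
      if s ∈ Sᶜ then 2 else 1 := by
    intro s
    by_cases h : s ∈ S <;> simp [h]
  simp only [h2]
  rw [Finset.prod_ite_mem, Finset.univ_inter, Finset.prod_const, ← pow_add,
    Finset.card_compl_add_card]

theorem ev_injOn (Ξ : Finset (ℕ → Bool)) :
    ∀ᶠ n in atTop, InjOn (fun ξ : ℕ → Bool => fun i : Fin n => ξ i) Ξ := by
  have : ∀ ξ ∈ Ξ, ∀ ξ' ∈ Ξ, ∀ᶠ n in atTop,
      (fun i : Fin n => ξ i) = (fun i : Fin n => ξ' i) → ξ = ξ' := by
    intro ξ _ ξ' _
    by_cases h : ξ = ξ'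
    · exact Eventually.of_forall fun _ _ => h
    · obtain ⟨i, hi⟩ := Function.ne_iff.1 h
      filter_upwards [eventually_gt_atTop i] with n hn he
      exact absurd (congrFun he ⟨i, hn⟩) hi
  have h2 := (Finset.eventually_all Ξ).2 fun ξ hξ => (Finset.eventually_all Ξ).2 (this ξ hξ)
  filter_upwards [h2] with n hn ξ hξ ξ' hξ' he
  exact hn ξ hξ ξ' hξ' he

theorem bad_finite {z : Set Pt} (hz : ¬ Ω₁.Null z) (b : Bool) :
    {ξ : ℕ → Bool | ∀ᶠ x in Ω₁.F, x ∈ z → x.2 (fun i => ξ i) = b}.Finite := by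
  classical
  by_contra hinf
  obtain ⟨ε, hε, hP⟩ := Ω₁.exists_eps hz
  obtain ⟨k, hk⟩ := exists_pow_lt_of_lt_one (half_pos hε) (show (1 / 2 : ℝ) < 1 by norm_num)
  obtain ⟨Ξ, hΞ, hcard⟩ := Set.Infinite.exists_subset_card_eq hinf k
  set Z' : Set Pt := {x | ∀ ξ ∈ Ξ, x.2 (fun i => ξ i) = b} with hZ'
  have hle : Le Ω₁.F z Z' := by
    have : ∀ᶠ x in Ω₁.F, ∀ ξ ∈ Ξ, x ∈ z → x.2 (fun i => ξ i) = b :=
      (Finset.eventually_all Ξ).2 fun ξ hξ => hΞ hξ
    filter_upwards [this] with x hx hxz ξ hξ using hx ξ hξ hxz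
  have hnull := (Ω₁.le_iff.1 hle).eventually (gt_mem_nhds (half_pos hε))
  obtain ⟨n, h1, h2, h3⟩ := (hP.and_eventually (hnull.and (ev_injOn Ξ))).exists
  have hN := Ω₁.Npos n
  rw [div_lt_iff₀ hN] at h2
  have h4 : (Ω₁.cnt z n : ℝ) ≤ Ω₁.cnt Z' n + Ω₁.cnt (z \ Z') n := by
    exact_mod_cast Ω₁.cnt_le_add Z' z n
  have h5 : Ω₁.cnt Z' n * 2 ^ k = Ω₁.N n := by
    have := card_fix (Ξ.image fun ξ : ℕ → Bool => fun i : Fin n => ξ i) b
    rw [Finset.card_image_of_injOn h3, hcard] at this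
    rw [cnt_Ω₁]
    convert this using 3
    · ext f
      simp [hZ']
    · simp [Ω₁]
  have h6 : (Ω₁.cnt Z' n : ℝ) = (1 / 2) ^ k * Ω₁.N n := by
    rw [← h5]
    push_cast
    rw [one_div, inv_pow]
    field_simp
  have h7 := mul_lt_mul_of_pos_right hk hN
  linarith

theorem splits_Ω₁ : Splits Ω₁.F := by
  intro 𝒵 h𝒵 hp
  set Bad : Set Pt → Set (ℕ → Bool) := fun z =>
    {ξ : ℕ → Bool | ∀ᶠ x in Ω₁.F, x ∈ z → x.2 (fun i => ξ i) = true} ∪
    {ξ : ℕ → Bool | ∀ᶠ x in Ω₁.F, x ∈ z → x.2 (fun i => ξ i) = false} with hBad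
  have hfin : ∀ z ∈ 𝒵, (Bad z).Finite := fun z hz =>
    (bad_finite (Ω₁.freq_iff.1 (hp z hz)) true).union (bad_finite (Ω₁.freq_iff.1 (hp z hz)) false)
  have hlt : #(⋃ z : 𝒵, Bad z) < 𝔠 := by
    refine (mk_iUnion_le _).trans_lt (mul_lt_of_lt aleph0_le_continuum h𝒵 ?_)
    refine lt_of_le_of_lt (ciSup_le' fun z => ?_) aleph0_lt_continuum
    exact (hfin z z.2).lt_aleph0.le
  have hex : ∃ ξ : ℕ → Bool, ξ ∉ ⋃ z : 𝒵, Bad z := by
    by_contra h
    push Not at h
    rw [eq_univ_of_forall h] at hlt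
    simp at hlt
  obtain ⟨ξ, hξ⟩ := hex
  refine ⟨{x | x.2 (fun i => ξ i) = true}, fun z hz => ?_⟩
  have h1 : ξ ∉ Bad z := fun h => hξ (mem_iUnion.2 ⟨⟨z, hz⟩, h⟩)
  simp only [hBad, mem_union, not_or, mem_ofPred_eq, not_eventually] at h1
  exact ⟨h1.2.mono fun x hx => by simpa using hx, h1.1.mono fun x hx => by simpa using hx⟩

namespace Win
variable {α : Type} (Ω : Win α)

/-- two copies of a window system -/
def dbl : Win (Bool × α) where
  w x := Ω.w x.2
  W n := Finset.univ ×ˢ Ω.W n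
  mem_W n x := by simp [Ω.mem_W]
  N := Ω.N
  pos := Ω.pos
  mono := Ω.mono
  grow := by
    have := Ω.grow.const_mul 2
    rw [mul_zero] at this
    refine squeeze_zero (fun n => by positivity) (fun n => ?_) this
    rw [← mul_div_assoc]
    refine div_le_div_of_nonneg_right ?_ (Ω.Npos n).le
    simp only [Finset.card_product, Finset.card_univ, Fintype.card_bool, Nat.cast_mul,
      Nat.cast_ofNat, ← Finset.mul_sum]
    linarith

theorem cnt_dbl (Z : Set (Bool × α)) (n : ℕ) :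
    Ω.dbl.cnt Z n = Ω.cnt {x | (false, x) ∈ Z} n + Ω.cnt {x | (true, x) ∈ Z} n := by
  classical
  unfold cnt
  simp only [Finset.card_filter, dbl, Finset.sum_product, Fintype.sum_bool, mem_ofPred_eq]
  rw [add_comm]

theorem null_dbl {Z : Set (Bool × α)} :
    Ω.dbl.Null Z ↔ Ω.Null {x | (false, x) ∈ Z} ∧ Ω.Null {x | (true, x) ∈ Z} := by
  have hN : Ω.dbl.N = Ω.N := rfl
  unfold Null
  simp only [cnt_dbl, hN, Nat.cast_add, add_div]
  constructor
  · intro h
    exact ⟨squeeze_zero (fun n => by positivity) (fun n => le_add_of_nonneg_right (by positivity)) h,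
      squeeze_zero (fun n => by positivity) (fun n => le_add_of_nonneg_left (by positivity)) h⟩
  · rintro ⟨h1, h2⟩
    simpa using h1.add h2

theorem le_dbl {A B : Set (Bool × α)} :
    Le Ω.dbl.F A B ↔ Le Ω.F {x | (false, x) ∈ A} {x | (false, x) ∈ B} ∧
      Le Ω.F {x | (true, x) ∈ A} {x | (true, x) ∈ B} := by
  rw [le_iff, le_iff, le_iff, null_dbl]
  rfl

end Win

end Crest.Agent.R53
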