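import Mathlib

/-! Uniform matroids from base families, and their direct sums. -/

set_option autoImplicit false
open Set

namespace Crest.Agent.R53

/-- A complement-closed family that is the base family of a uniform matroid. -/
structure UFam {G : Type} (𝓑 : Set (Set G)) : Prop where
  anti : ∀ B ∈ 𝓑, ∀ B' ∈ 𝓑, B ⊆ B' → B = B'
  exch : ∀ B ∈ 𝓑, ∀ e ∈ B, ∀ f, f ∉ B → insert f (B \ {e}) ∈ 𝓑
  intv : ∀ I X : Set G, I ⊆ X → ∃ B ∈ 𝓑, B ⊆ I ∨ X ⊆ B ∨ (I ⊆ B ∧ B ⊆ X)
  compl : ∀ B ∈ 𝓑, Bᶜ ∈ 𝓑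

namespace UFam
variable {G : Type} {𝓑 : Set (Set G)}

theorem exchange (h : UFam 𝓑) : Matroid.ExchangeProperty (· ∈ 𝓑) := by
  intro X Y hX hY a ha
  have hne : ¬ Y ⊆ X := by
    intro hs
    have := h.anti Y hY X hX hs
    exact ha.2 (this ▸ ha.1)
  obtain ⟨b, hbY, hbX⟩ := not_subset.1 hne
  exact ⟨b, ⟨hbY, hbX⟩, h.exch X hX a ha.1 b hbX⟩

theorem maximality (h : UFam 𝓑) (X : Set G) :
    Matroid.ExistsMaximalSubsetProperty (∃ B, B ∈ 𝓑 ∧ · ⊆ B) X := by
  intro I ⟨B₀, hB₀, hIB₀⟩ hIX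
  obtain ⟨B, hB, hc⟩ := h.intv I X hIX
  have key : ∀ B ∈ 𝓑, I ⊆ B → B ⊆ X →
      ∃ J, I ⊆ J ∧ Maximal (fun K ↦ (∃ B, B ∈ 𝓑 ∧ K ⊆ B) ∧ K ⊆ X) J := by
    intro B hB h1 h2
    refine ⟨B, h1, ⟨⟨B, hB, Subset.rfl⟩, h2⟩, ?_⟩
    rintro K ⟨⟨B', hB', hK⟩, -⟩ hBK
    have := h.anti B hB B' hB' (Subset.trans hBK hK)
    exact this ▸ hK
  rcases hc with hc | hc | hc
  · have := h.anti B hB B₀ hB₀ (hc.trans hIB₀)
    exact key B hB (this ▸ hIB₀) (hc.trans hIX)
  · exact ⟨X, hIX, ⟨⟨B, hB, hc⟩, Subset.rfl⟩, fun K hK _ => hK.2⟩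
  · exact key B hB hc.1 hc.2

/-- The uniform matroid with the given bases. -/
def matroid (h : UFam 𝓑) : Matroid G :=
  Matroid.ofBase univ (· ∈ 𝓑)
    (by obtain ⟨B, hB, -⟩ := h.intv ∅ ∅ Subset.rfl; exact ⟨B, hB⟩)
    h.exchange (fun X _ => h.maximality X) (fun _ _ => subset_univ _)

theorem matroid_E (h : UFam 𝓑) : h.matroid.E = univ := rfl

theorem matroid_isBase (h : UFam 𝓑) (B : Set G) : h.matroid.IsBase B ↔ B ∈ 𝓑 := Iff.rfl

theorem matroid_indep (h : UFam 𝓑) (I : Set G) : h.matroid.Indep I ↔ ∃ B ∈ 𝓑, I ⊆ B := Iff.rfl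

/-- a non-spanning set stays independent when one element is added -/
theorem insert_indep (h : UFam 𝓑) {S : Set G} (hS : ¬ ∃ B ∈ 𝓑, B ⊆ S) (x : G) :
    ∃ B ∈ 𝓑, insert x S ⊆ B := by
  obtain ⟨B, hB, hc⟩ := h.intv S S Subset.rfl
  have hSB : S ⊆ B := by
    rcases hc with hc | hc | hc
    · exact absurd ⟨B, hB, hc⟩ hS
    · exact hc
    · exact hc.1
  by_cases hx : x ∈ B
  · exact ⟨B, hB, insert_subset hx hSB⟩
  have hne : ¬ B ⊆ S := fun hs => hS ⟨B, hB, hs⟩
  obtain ⟨e, heB, heS⟩ := not_subset.1 hne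
  refine ⟨_, h.exch B hB e heB x hx, insert_subset_insert ?_⟩
  intro y hy
  exact ⟨hSB hy, fun hye => heS (by rw [mem_singleton_iff] at hye; exact hye ▸ hy)⟩

theorem exists_sum (h : UFam 𝓑) {ι Ω : Type} (e : ι × G ≃ Ω) :
    ∃ M : Matroid Ω, M.E = univ ∧ M.dual = M ∧
      ∀ (S : Set Ω) (i : ι) (g : G), e (i, g) ∈ M.closure S → e (i, g) ∉ S →
        ∃ B ∈ 𝓑, ∀ g' ∈ B, e (i, g') ∈ S := by
  set M : Matroid Ω := (Matroid.sum' fun _ : ι => h.matroid).mapEquiv e with hM
  have hpre : ∀ (B : Set Ω) (i : ι), Prod.mk i ⁻¹' (e.symm '' B) = {g | e (i, g) ∈ B} := by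
    intro B i
    ext g
    simp only [mem_preimage, mem_image, mem_ofPred_eq]
    constructor
    · rintro ⟨x, hx, hxe⟩
      rw [← hxe]; simpa using hx
    · intro hx
      exact ⟨_, hx, by simp⟩
  have hE : M.E = univ := by
    rw [hM, Matroid.mapEquiv_ground_eq, Matroid.sum'_ground_eq]
    ext x
    simp only [matroid_E, image_univ, mem_image, mem_iUnion, mem_range, mem_univ, iff_true]
    exact ⟨e.symm x, ⟨(e.symm x).1, (e.symm x).2, rfl⟩, by simp⟩
  have hB : ∀ B, M.IsBase B ↔ ∀ i, {g | e (i, g) ∈ B} ∈ 𝓑 := by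
    intro B
    rw [hM, Matroid.mapEquiv_isBase_iff, Matroid.sum'_isBase_iff]
    simp only [hpre, matroid_isBase]
  have hI : ∀ I, M.Indep I ↔ ∀ i, ∃ B ∈ 𝓑, {g | e (i, g) ∈ I} ⊆ B := by
    intro I
    rw [hM, Matroid.mapEquiv_indep_iff, Matroid.sum'_indep_iff]
    simp only [hpre, matroid_indep]
  refine ⟨M, hE, ?_, ?_⟩
  · refine Matroid.ext_isBase rfl fun B hBE => ?_
    rw [Matroid.dual_isBase_iff (M := M) hBE, hE, hB, hB]
    constructor
    · intro hh i
      have := h.compl _ (hh i)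
      convert this using 1
      ext g; simp
    · intro hh i
      have := h.compl _ (hh i)
      convert this using 1
      ext g; simp
  · intro S i g hcl hS
    by_contra hne
    have hne' : ¬ ∃ B ∈ 𝓑, B ⊆ {g' | e (i, g') ∈ S} := hne
    obtain ⟨I, hIS⟩ := M.exists_isBasis S (by rw [hE]; exact subset_univ _)
    rw [← hIS.closure_eq_closure, hIS.indep.mem_closure_iff] at hcl
    rcases hcl with hcl | hcl
    · apply hcl.not_indep
      rw [hI]
      intro j
      by_cases hj : j = i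
      · subst hj
        obtain ⟨B, hB, hsub⟩ := h.insert_indep hne' g
        refine ⟨B, hB, Subset.trans ?_ hsub⟩
        intro g' hg'
        rcases hg' with hg' | hg'
        · left
          have := e.injective hg'
          exact (Prod.mk.inj this).2
        · right
          exact hIS.subset hg'
      · obtain ⟨B, hB, hsub⟩ := (hI I).1 hIS.indep j
        refine ⟨B, hB, Subset.trans ?_ hsub⟩
        intro g' hg'
        rcases hg' with hg' | hg'
        · exact absurd (Prod.mk.inj (e.injective hg')).1 hj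
        · exact hg'
    · exact hS (hIS.subset hcl)

end UFam

/-- a covering of `C` in the contraction gives a packing of `C` for a self-dual matroid -/
theorem subset_closure_of_contract {Ω : Type} {M : Matroid Ω} (hE : M.E = univ) (hd : M.dual = M)
    {C I : Set Ω} (hI : (M.contract Cᶜ).Indep I) : C ⊆ M.closure (C \ I) := by
  have h1 : (M.contract Cᶜ).dual = M.delete Cᶜ := by rw [Matroid.dual_contract, hd]
  have h2 : (M.delete Cᶜ).Coindep I := by
    rw [← h1, Matroid.dual_coindep_iff]; exact hI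
  have h3 := h2.compl_spanning
  have hE' : (M.delete Cᶜ).E = C := by simp [hE]
  rw [hE', Matroid.spanning_iff_closure_eq (by rw [hE']; exact sdiff_subset), hE',
    Matroid.delete_closure_eq] at h3
  intro x hx
  rw [← h3] at hx
  exact M.closure_subset_closure sdiff_subset hx.1

theorem subset_closure_of_restrict {Ω : Type} {M : Matroid Ω} (hE : M.E = univ)
    {P S : Set Ω} (h : (M.restrict P).closure S = P) : P ⊆ M.closure S := by
  rw [Matroid.restrict_closure_eq' ] at h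
  intro x hx
  rw [← h] at hx
  rcases hx with hx | hx
  · exact M.closure_subset_closure inter_subset_left hx.1
  · exact absurd (by rw [hE]; exact mem_univ _) hx.2

end Crest.Agent.R53
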