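import Crest.Agent.R53.Local
import Crest.Agent.R53.Split
import Crest.Agent.R53.Unif

/-! The identically self-dual uniform matroid and the double ray. -/

set_option autoImplicit false
open Set Filter

namespace Crest.Agent.R53

theorem local_strong {G : Type} {F : Filter G} {𝓑 : Set (Set G)} {A : Set G}
    (hK : ∀ B ∈ 𝓑, Le F B A ∧ Le F A B)
    (h3 : ∀ I X : Set G, I ⊆ X → Le F I A → Le F A X → ∃ B ∈ 𝓑, B ⊆ I ∨ X ⊆ B ∨ (I ⊆ B ∧ B ⊆ X))
    {I X : Set G} (hIX : I ⊆ X) (h : Le F A I ∨ Le F X A ∨ (Le F I A ∧ Le F A X)) :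
    ∃ B ∈ 𝓑, B ⊆ I ∨ X ⊆ B ∨ (I ⊆ B ∧ B ⊆ X) := by
  by_cases hc : Le F I A ∧ Le F A X
  · exact h3 I X hIX hc.1 hc.2
  rcases h with h | h | h
  · obtain ⟨B, hB, hb⟩ := h3 ∅ I (empty_subset _) (.of_subset (empty_subset _)) h
    refine ⟨B, hB, Or.inl ?_⟩
    rcases hb with hb | hb | hb
    · exact hb.trans (empty_subset _)
    · exact absurd ⟨(Le.of_subset hb).trans (hK B hB).1, h.trans (.of_subset hIX)⟩ hc
    · exact hb.2
  · obtain ⟨B, hB, hb⟩ := h3 X univ (subset_univ _) h (.of_subset (subset_univ _))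
    refine ⟨B, hB, Or.inr (Or.inl ?_)⟩
    rcases hb with hb | hb | hb
    · exact absurd ⟨(Le.of_subset hIX).trans h, (hK B hB).2.trans (.of_subset hb)⟩ hc
    · exact (subset_univ _).trans hb
    · exact hb.1
  · exact absurd h hc

/-- left part -/
def Lp {α : Type} (B : Set (Bool × α)) : Set α := {x | (false, x) ∈ B}
/-- right part -/
def Rp {α : Type} (B : Set (Bool × α)) : Set α := {x | (true, x) ∈ B}
/-- the set with given parts -/
def pr {α : Type} (u u' : Set α) : Set (Bool × α) :=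
  {p | (p.1 = false ∧ p.2 ∈ u) ∨ (p.1 = true ∧ p.2 ∈ u')}

theorem Lp_pr {α : Type} (u u' : Set α) : Lp (pr u u') = u := by
  ext x; simp [Lp, pr]

theorem Rp_pr {α : Type} (u u' : Set α) : Rp (pr u u') = u' := by
  ext x; simp [Rp, pr]

theorem exists_U : ∃ (V : Ultrafilter Pt) (𝓑 : Set (Set (Bool × Pt))), UFam 𝓑 ∧
    (∀ B ∈ 𝓑, Lp B ∈ V ∨ Rp B ∈ V) ∧
    ∀ y : ℕ → Set Pt, (∀ j, y j ∉ V) →
      ¬ ∀ j, ∃ B ∈ 𝓑, Lp B ⊆ y j ∧ Disjoint (Rp B) (y (j + 1)) := by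
  have hne : Ω₁.F.NeBot := by
    rw [← frequently_true_iff_neBot]
    exact Ω₁.freq_iff.2 not_null_univ
  obtain ⟨V, hV⟩ := Ultrafilter.exists_le Ω₁.F
  obtain ⟨𝒜, a1, a2, a3, a4⟩ := exists_active splits_Ω₁ hV
  have pos : ∀ z : Set Pt, z ∈ V → ¬ Ω₁.Null z := by
    intro z hz h
    have : Le Ω₁.F z ∅ := Ω₁.le_iff.2 (by rwa [sdiff_empty])
    exact Ultrafilter.empty_notMem (this.mem hV hz)
  have led : ∀ {A B : Set (Bool × Pt)}, Le Ω₁.dbl.F A B ↔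
      Le Ω₁.F (Lp A) (Lp B) ∧ Le Ω₁.F (Rp A) (Rp B) := Ω₁.le_dbl
  have hloc : ∀ c ∈ 𝒜, _ := fun c hc => Ω₁.dbl.exists_local (pr c.1ᶜ c.2)
    (fun h => pos _ (Ultrafilter.compl_mem_iff_notMem.2 (a1 c hc).1)
      (Lp_pr c.1ᶜ c.2 ▸ (Ω₁.null_dbl.1 h).1))
    (fun h => pos _ (Ultrafilter.compl_mem_iff_notMem.2 (a1 c hc).2)
      (by have := (Ω₁.null_dbl.1 h).2
          rwa [show {x | (true, x) ∈ (pr c.1ᶜ c.2)ᶜ} = (Rp (pr c.1ᶜ c.2))ᶜ from rfl, Rp_pr] at this))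
  choose! 𝓛 l1 l2 l3 l4 using hloc
  have k : ∀ c ∈ 𝒜, ∀ B ∈ 𝓛 c, (Le Ω₁.F (Lp B) c.1ᶜ ∧ Le Ω₁.F (Rp B) c.2) ∧
      (Le Ω₁.F c.1ᶜ (Lp B) ∧ Le Ω₁.F c.2 (Rp B)) := by
    intro c hc B hB
    have := l1 c hc B hB
    rwa [led, led, Lp_pr, Rp_pr] at this
  have kL : ∀ c ∈ 𝒜, ∀ B ∈ 𝓛 c, Lp B ∈ V := fun c hc B hB =>
    (k c hc B hB).2.1.mem hV (Ultrafilter.compl_mem_iff_notMem.2 (a1 c hc).1)
  have kR : ∀ c ∈ 𝒜, ∀ B ∈ 𝓛 c, Rp B ∉ V := fun c hc B hB h =>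
    (a1 c hc).2 ((k c hc B hB).1.2.mem hV h)
  have anti : ∀ c ∈ 𝒜, ∀ c' ∈ 𝒜, ∀ B ∈ 𝓛 c, ∀ B' ∈ 𝓛 c', B ⊆ B' → B = B' := by
    intro c hc c' hc' B hB B' hB' hs
    have h1 : Le Ω₁.F (Lp B) (Lp B') := .of_subset fun x hx => hs hx
    have h2 : Le Ω₁.F (Rp B) (Rp B') := .of_subset fun x hx => hs hx
    have := a2 c hc c' hc' (Le.of_compl ((k c hc B hB).2.1.trans (h1.trans (k c' hc' B' hB').1.1)))
      ((k c hc B hB).2.2.trans (h2.trans (k c' hc' B' hB').1.2))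
    subst this
    exact l2 c hc B hB B' hB' hs
  have intv : ∀ c ∈ 𝒜, ∀ I X : Set (Bool × Pt), I ⊆ X →
      Sat Ω₁.F c.1ᶜ c.2 (Lp I) (Rp I) (Lp X) (Rp X) →
      ∃ B ∈ 𝓛 c, B ⊆ I ∨ X ⊆ B ∨ (I ⊆ B ∧ B ⊆ X) := by
    intro c hc I X hIX hs
    refine local_strong (l1 c hc) (l4 c hc) hIX ?_
    simp only [led, Lp_pr, Rp_pr]
    rcases hs with hs | hs | hs
    · exact Or.inl hs
    · exact Or.inr (Or.inl hs)
    · exact Or.inr (Or.inr ⟨⟨hs.1, hs.2.2.1⟩, hs.2.1, hs.2.2.2⟩)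
  refine ⟨V, {B | ∃ c ∈ 𝒜, B ∈ 𝓛 c ∨ Bᶜ ∈ 𝓛 c}, ⟨?_, ?_, ?_, ?_⟩, ?_, ?_⟩
  · rintro B ⟨c, hc, hB | hB⟩ B' ⟨c', hc', hB' | hB'⟩ hs
    · exact anti c hc c' hc' B hB B' hB' hs
    · exact absurd (mem_of_superset (kL c hc B hB) fun x hx => hs hx)
        (Ultrafilter.compl_mem_iff_notMem.1 (kL c' hc' _ hB'))
    · exact absurd (mem_of_superset (Ultrafilter.compl_notMem_iff.1 (kR c hc _ hB))
        fun x hx => hs hx) (kR c' hc' _ hB')
    · exact compl_injective (anti c' hc' c hc _ hB' _ hB (compl_subset_compl.2 hs)).symm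
  · rintro B ⟨c, hc, hB | hB⟩ e he f hf
    · exact ⟨c, hc, Or.inl (l3 c hc B hB e he f hf)⟩
    · refine ⟨c, hc, Or.inr ?_⟩
      convert l3 c hc _ hB f hf e (fun h => h he) using 1
      ext x
      simp only [mem_compl_iff, mem_insert_iff, Set.mem_sdiff, mem_singleton_iff]
      constructor
      · tauto
      · rintro (rfl | h)
        · rintro (rfl | h)
          · exact hf he
          · exact h.2 rfl
        · tauto
  · intro I X hIX
    obtain ⟨c, hc, hs | hs⟩ := a4 (Lp I) (Rp I) (Lp X) (Rp X) (fun x hx => hIX hx)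
      (fun x hx => hIX hx)
    · obtain ⟨B, hB, hb⟩ := intv c hc I X hIX hs
      exact ⟨B, ⟨c, hc, Or.inl hB⟩, hb⟩
    · obtain ⟨B, hB, hb⟩ := intv c hc Xᶜ Iᶜ (compl_subset_compl.2 hIX) (by
        have := Sat.compl (F := Ω₁.F) (u := c.1) (u' := c.2ᶜ) (a := (Lp X)ᶜ) (a' := (Rp X)ᶜ)
          (b := (Lp I)ᶜ) (b' := (Rp I)ᶜ) (by simpa using hs)
        rw [compl_compl] at this
        exact this)
      refine ⟨Bᶜ, ⟨c, hc, Or.inr (by rwa [compl_compl])⟩, ?_⟩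
      rcases hb with hb | hb | hb
      · exact Or.inr (Or.inl (subset_compl_comm.1 hb))
      · exact Or.inl (compl_subset_comm.1 hb)
      · exact Or.inr (Or.inr ⟨subset_compl_comm.1 hb.2, compl_subset_comm.1 hb.1⟩)
  · rintro B ⟨c, hc, hB | hB⟩
    · exact ⟨c, hc, Or.inr (by rwa [compl_compl])⟩
    · exact ⟨c, hc, Or.inl hB⟩
  · rintro B ⟨c, hc, hB | hB⟩
    · exact Or.inl (kL c hc B hB)
    · exact Or.inr (Ultrafilter.compl_notMem_iff.1 (kR c hc _ hB))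
  · intro y hy h
    have : ∀ j, ∃ c ∈ 𝒜, Le Ω₁.F c.1 (y j) ∧ Le Ω₁.F (y (j + 1)) c.2 := by
      intro j
      obtain ⟨B, ⟨c, hc, hB | hB⟩, b1, b2⟩ := h j
      · exact absurd (mem_of_superset (kL c hc B hB) b1) (hy j)
      · refine ⟨c, hc, ?_, ?_⟩
        · exact (Le.of_compl (a := Lp B) (k c hc _ hB).1.1).trans (.of_subset b1)
        · exact (Le.of_subset (b := (Rp B)ᶜ) b2.subset_compl_left).trans (k c hc _ hB).1.2
    choose c hc c1 c2 using this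
    exact a3 c hc fun j => (c1 (j + 1)).trans (c2 j)

theorem ray {α : Type} {V : Ultrafilter α} {𝓑 : Set (Set (Bool × α))}
    (h1 : ∀ B ∈ 𝓑, Lp B ∈ V ∨ Rp B ∈ V)
    (h2 : ∀ y : ℕ → Set α, (∀ j, y j ∉ V) →
      ¬ ∀ j, ∃ B ∈ 𝓑, Lp B ⊆ y j ∧ Disjoint (Rp B) (y (j + 1)))
    (p y z : ℕ → Set α) (hz : ∀ k, z k ⊆ p (k + 1)) (hd : ∀ k, Disjoint (z k) (y (k + 1)))
    (hv : ∀ k, p k ⊆ y k ∨ ∃ B ∈ 𝓑, Lp B ⊆ y k ∧ Rp B ⊆ z k) (hp : p 0 ∈ V) (hy : y 0 ∉ V) :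
    False := by
  have key : ∀ k, p k ∈ V → y k ∉ V → ∃ B ∈ 𝓑, Lp B ⊆ y k ∧ Rp B ⊆ z k := fun k a b =>
    (hv k).resolve_left fun h => b (mem_of_superset a h)
  have ind : ∀ k, p k ∈ V ∧ y k ∉ V := by
    intro k
    induction k with
    | zero => exact ⟨hp, hy⟩
    | succ k ih =>
      obtain ⟨B, hB, b1, b2⟩ := key k ih.1 ih.2
      have hzV : z k ∈ V := mem_of_superset
        ((h1 B hB).resolve_left fun h => ih.2 (mem_of_superset h b1)) b2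
      refine ⟨mem_of_superset hzV (hz k), fun h => ?_⟩
      have := inter_mem hzV h
      rw [(hd k).inter_eq] at this
      exact Ultrafilter.empty_notMem this
  refine h2 y (fun j => (ind j).2) fun j => ?_
  obtain ⟨B, hB, b1, b2⟩ := key j (ind j).1 (ind j).2
  exact ⟨B, hB, b1, (hd j).mono_left b2⟩

/-- the two edges at the vertex between `j` and `j + 1`, the one closer to `0` first -/
def edge (j : ℤ) (b : Bool) : ℤ :=
  if 0 ≤ j then (if b then j + 1 else j) else (if b then j else j + 1)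

theorem edge_bij (i : ℤ) : Function.Bijective fun p : ℤ × Bool => edge (2 * p.1 + i) p.2 := by
  constructor
  · rintro ⟨m, b⟩ ⟨m', b'⟩ h
    cases b <;> cases b' <;> simp only [edge, Bool.false_eq_true, if_false, if_true] at h <;>
      split_ifs at h <;> first | omega | (congr 1; omega)
  · intro j
    by_cases h : (j - i) % 2 = 0
    · by_cases hj : 0 ≤ j
      · refine ⟨((j - i) / 2, false), ?_⟩
        simp only [edge, Bool.false_eq_true, if_false]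
        split_ifs <;> omega
      · refine ⟨((j - i) / 2, true), ?_⟩
        simp only [edge, if_true]
        split_ifs <;> omega
    · by_cases hj : 0 < j
      · refine ⟨((j - i) / 2, true), ?_⟩
        simp only [edge, if_true]
        split_ifs <;> omega
      · refine ⟨((j - i) / 2, false), ?_⟩
        simp only [edge, Bool.false_eq_true, if_false]
        split_ifs <;> omega

theorem exists_pair : ∃ M₀ M₁ : Matroid ℕ, M₀.E = univ ∧ M₁.E = univ ∧ M₀.dual = M₀ ∧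
    M₁.dual = M₁ ∧ ∃ 𝒱 : Set ℕ → Prop, (∀ P C, P ∪ C = univ → 𝒱 P ∨ 𝒱 C) ∧
      ∀ P S₀ S₁ : Set ℕ, S₀ ⊆ P → S₁ ⊆ P → Disjoint S₀ S₁ → P ⊆ M₀.closure S₀ →
        P ⊆ M₁.closure S₁ → ¬ 𝒱 P := by
  obtain ⟨V, 𝓑, hU, h1, h2⟩ := exists_U
  obtain ⟨e₀⟩ : Nonempty (ℤ × Pt ≃ ℕ) := nonempty_equiv_of_countable
  let e : ℤ → (ℤ × (Bool × Pt) ≃ ℕ) := fun i => (Equiv.prodAssoc ℤ Bool Pt).symm.trans
    (((Equiv.ofBijective _ (edge_bij i)).prodCongr (Equiv.refl Pt)).trans e₀)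
  have he : ∀ i m b x, e i (m, (b, x)) = e₀ (edge (2 * m + i) b, x) := fun _ _ _ _ => rfl
  obtain ⟨M₀, E0, D0, C0⟩ := hU.exists_sum (e 0)
  obtain ⟨M₁, E1, D1, C1⟩ := hU.exists_sum (e 1)
  refine ⟨M₀, M₁, E0, E1, D0, D1, fun P => {x | e₀ (0, x) ∈ P} ∈ V, ?_, ?_⟩
  · intro P C h
    rw [← Ultrafilter.union_mem_iff]
    refine mem_of_superset univ_mem fun x _ => ?_
    have : e₀ (0, x) ∈ P ∪ C := h ▸ mem_univ _
    exact this
  intro P S₀ S₁ s0 s1 hd c0 c1 hP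
  set S : ℤ → Set ℕ := fun j => if j % 2 = 0 then S₀ else S₁ with hS
  have sP : ∀ j, S j ⊆ P := by
    intro j
    simp only [hS]
    split_ifs
    exacts [s0, s1]
  have sd : ∀ j, Disjoint (S j) (S (j + 1)) := by
    intro j
    simp only [hS]
    split_ifs
    · omega
    · exact hd
    · exact hd.symm
    · omega
  have gen : ∀ (i : ℤ) (M : Matroid ℕ) (T : Set ℕ), P ⊆ M.closure T →
      (∀ (S : Set ℕ) (m : ℤ) (g : Bool × Pt), e i (m, g) ∈ M.closure S → e i (m, g) ∉ S →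
        ∃ B ∈ 𝓑, ∀ g' ∈ B, e i (m, g') ∈ S) → ∀ m : ℤ,
      {x | e₀ (edge (2 * m + i) false, x) ∈ P} ⊆ {x | e₀ (edge (2 * m + i) false, x) ∈ T} ∨
        ∃ B ∈ 𝓑, Lp B ⊆ {x | e₀ (edge (2 * m + i) false, x) ∈ T} ∧
          Rp B ⊆ {x | e₀ (edge (2 * m + i) true, x) ∈ T} := by
    intro i M T hT hC m
    by_cases h : {x | e₀ (edge (2 * m + i) false, x) ∈ P} ⊆
      {x | e₀ (edge (2 * m + i) false, x) ∈ T}
    · exact Or.inl h
    obtain ⟨x, hx, hx'⟩ := not_subset.1 h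
    obtain ⟨B, hB, hb⟩ := hC T m (false, x) (hT hx) hx'
    exact Or.inr ⟨B, hB, fun y hy => hb _ hy, fun y hy => hb _ hy⟩
  have hv : ∀ j : ℤ,
      {x | e₀ (edge j false, x) ∈ P} ⊆ {x | e₀ (edge j false, x) ∈ S j} ∨
        ∃ B ∈ 𝓑, Lp B ⊆ {x | e₀ (edge j false, x) ∈ S j} ∧
          Rp B ⊆ {x | e₀ (edge j true, x) ∈ S j} := by
    intro j
    by_cases h : j % 2 = 0
    · have := gen 0 M₀ S₀ c0 C0 (j / 2)
      rw [show 2 * (j / 2) + 0 = j by omega] at this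
      simpa only [hS, if_pos h] using this
    · have := gen 1 M₁ S₁ c1 C1 (j / 2)
      rw [show 2 * (j / 2) + 1 = j by omega] at this
      simpa only [hS, if_neg h] using this
  have run : ∀ v : ℕ → ℤ, edge (v 0) false = 0 →
      (∀ k, edge (v k) true = edge (v (k + 1)) false) →
      (∀ k, Disjoint (S (v k)) (S (v (k + 1)))) → {x | e₀ (0, x) ∈ S (v 0)} ∈ V := by
    intro v v0 v1 v2
    by_contra hn
    refine ray h1 h2 (fun k => {x | e₀ (edge (v k) false, x) ∈ P})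
      (fun k => {x | e₀ (edge (v k) false, x) ∈ S (v k)})
      (fun k => {x | e₀ (edge (v k) true, x) ∈ S (v k)}) ?_ ?_ (fun k => hv (v k))
      (by simpa only [v0] using hP) (by simpa only [v0] using hn)
    · intro k x hx
      simp only [← v1]
      exact sP _ hx
    · intro k
      simp only [← v1]
      exact disjoint_left.2 fun x hx hx' => disjoint_left.1 (v2 k) hx hx'
  have r1 := run (fun k => (k : ℤ)) (by simp [edge]) (fun k => by
    simp only [edge, Bool.false_eq_true, if_false, if_true]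
    split_ifs <;> omega) (fun k => by push_cast; exact sd k)
  have r2 := run (fun k => -(k : ℤ) - 1) (by simp [edge]) (fun k => by
    simp only [edge, Bool.false_eq_true, if_false, if_true]
    split_ifs <;> omega) (fun k => by
      have := sd (-((k + 1 : ℕ) : ℤ) - 1)
      rw [show -((k + 1 : ℕ) : ℤ) - 1 + 1 = -(k : ℤ) - 1 by push_cast; ring] at this
      exact this.symm)
  obtain ⟨x, x1, x2⟩ := Ultrafilter.nonempty_of_mem (inter_mem r1 r2)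
  exact disjoint_left.1 (sd (-1)) x2 x1

end Crest.Agent.R53
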