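import Mathlib

/-! The transfinite recursion modulo an ideal: the "active classes". -/

set_option autoImplicit false
open Set Filter Cardinal

namespace Crest.Agent.R53

theorem exists_rec {T β : Type} [LinearOrder T] [WellFoundedLT T] (P : T → Set β → β → Prop)
    (hP : ∀ t S, ∃ b, P t S b) : ∃ f : T → β, ∀ t, P t (f '' Iio t) (f t) := by
  choose g hg using hP
  let f : T → β := WellFounded.fix (wellFounded_lt (α := T))
    fun t ih => g t (range fun s : Iio t => ih s.1 s.2)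
  refine ⟨f, fun t => ?_⟩
  have : f t = g t (f '' Iio t) := by
    have h1 : f t = g t (range fun s : Iio t => f s.1) := WellFounded.fix_eq _ _ _
    rw [h1]
    congr 1
    ext b
    simp
  rw [this]
  exact hg _ _

/-- inclusion modulo the ideal dual to `F` -/
def Le {α : Type} (F : Filter α) (a b : Set α) : Prop := ∀ᶠ x in F, x ∈ a → x ∈ b

/-- fewer than continuum many positive sets are split by one set -/
def Splits {α : Type} (F : Filter α) : Prop :=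
  ∀ 𝒵 : Set (Set α), #𝒵 < 𝔠 → (∀ z ∈ 𝒵, ∃ᶠ x in F, x ∈ z) →
    ∃ Y : Set α, ∀ z ∈ 𝒵, (∃ᶠ x in F, x ∈ z ∧ x ∈ Y) ∧ (∃ᶠ x in F, x ∈ z ∧ x ∉ Y)

/-- `(u, u')` lies below `(a, a')`, above `(b, b')` or between them, modulo the ideal. -/
def Sat {α : Type} (F : Filter α) (u u' a a' b b' : Set α) : Prop :=
  (Le F u a ∧ Le F u' a') ∨ (Le F b u ∧ Le F b' u') ∨
    (Le F a u ∧ Le F u b ∧ Le F a' u' ∧ Le F u' b')

section
variable {α : Type} {F : Filter α}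

theorem Le.of_subset {a b : Set α} (h : a ⊆ b) : Le F a b :=
  Eventually.of_forall fun _ hx => h hx

theorem Le.rfl {a : Set α} : Le F a a := Le.of_subset Subset.rfl

theorem Le.trans {a b c : Set α} (h : Le F a b) (h' : Le F b c) : Le F a c := by
  filter_upwards [h, h'] with x h1 h2 hx using h2 (h1 hx)

theorem Le.compl {a b : Set α} (h : Le F a b) : Le F bᶜ aᶜ := by
  filter_upwards [h] with x h1 hx ha using hx (h1 ha)

theorem Le.compl_left {a b : Set α} (h : Le F aᶜ b) : Le F bᶜ a := by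
  simpa using h.compl

theorem Le.compl_right {a b : Set α} (h : Le F a bᶜ) : Le F b aᶜ := by
  simpa using h.compl

theorem Le.of_compl {a b : Set α} (h : Le F aᶜ bᶜ) : Le F b a := by
  simpa using h.compl

theorem not_le_iff {a b : Set α} : ¬ Le F a b ↔ ∃ᶠ x in F, x ∈ a \ b := by
  unfold Le
  rw [not_eventually]
  simp only [Classical.not_imp, Set.mem_sdiff]

theorem Le.mem {V : Ultrafilter α} (hV : (V : Filter α) ≤ F) {a b : Set α} (h : Le F a b)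
    (ha : a ∈ V) : b ∈ V := by
  have h1 : ∀ᶠ x in (V : Filter α), x ∈ a → x ∈ b := hV h
  have h2 : ∀ᶠ x in (V : Filter α), x ∈ a := ha
  have : ∀ᶠ x in (V : Filter α), x ∈ b := by
    filter_upwards [h1, h2] with x h3 h4 using h3 h4
  exact this

theorem Sat.compl {u u' a a' b b' : Set α} (h : Sat F u u' bᶜ b'ᶜ aᶜ a'ᶜ) :
    Sat F uᶜ u'ᶜ a a' b b' := by
  rcases h with h | h | h
  · exact Or.inr (Or.inl ⟨h.1.compl_right, h.2.compl_right⟩)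
  · exact Or.inl ⟨h.1.compl_left, h.2.compl_left⟩
  · exact Or.inr (Or.inr ⟨h.2.1.compl_right, h.1.compl_left, h.2.2.2.compl_right,
      h.2.2.1.compl_left⟩)

theorem Splits.small (hs : Splits F) (V : Ultrafilter α) (𝒵 : Set (Set α)) (h𝒵 : #𝒵 < 𝔠)
    (hp : ∀ z ∈ 𝒵, ∃ᶠ x in F, x ∈ z) :
    ∃ Y : Set α, Y ∉ V ∧ ∀ z ∈ 𝒵, (∃ᶠ x in F, x ∈ z ∧ x ∈ Y) ∧ (∃ᶠ x in F, x ∈ z ∧ x ∉ Y) := by
  obtain ⟨Y, hY⟩ := hs 𝒵 h𝒵 hp
  by_cases h : Y ∈ V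
  · refine ⟨Yᶜ, Ultrafilter.compl_notMem_iff.2 h, fun z hz => ⟨(hY z hz).2, ?_⟩⟩
    simpa using (hY z hz).1
  · exact ⟨Y, h, hY⟩

theorem mk_insert_lt {β : Type} {S : Set β} (h : #S < 𝔠) (b : β) : #(insert b S : Set β) < 𝔠 :=
  (mk_insert_le).trans_lt (add_lt_of_lt aleph0_le_continuum h (one_lt_aleph0.trans
    aleph0_lt_continuum))

theorem mk_union_lt {β : Type} {S S' : Set β} (h : #S < 𝔠) (h' : #S' < 𝔠) :
    #(S ∪ S' : Set β) < 𝔠 :=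
  (mk_union_le _ _).trans_lt (add_lt_of_lt aleph0_le_continuum h h')

theorem mk_image_lt {β γ : Type} {S : Set β} (h : #S < 𝔠) (f : β → γ) : #(f '' S) < 𝔠 :=
  (mk_image_le).trans_lt h

/-- a generic small set in an interval with small bottom -/
theorem Splits.gen (hs : Splits F) (V : Ultrafilter α) (𝒲 : Set (Set α)) (h𝒲 : #𝒲 < 𝔠)
    {p' p : Set α} (hpp : p' ⊆ p) (hp' : p' ∉ V) :
    ∃ y : Set α, y ∉ V ∧ p' ⊆ y ∧ y ⊆ p ∧
      ∀ w ∈ 𝒲, (Le F y w → Le F p w) ∧ (Le F w y → Le F w p') := by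
  set 𝒵 : Set (Set α) := (((fun w => p \ w) '' 𝒲) ∪ ((fun w => w \ p') '' 𝒲)) ∩
    {z | ∃ᶠ x in F, x ∈ z} with h𝒵
  have hc : #𝒵 < 𝔠 :=
    (mk_le_mk_of_subset inter_subset_left).trans_lt
      (mk_union_lt (mk_image_lt h𝒲 _) (mk_image_lt h𝒲 _))
  obtain ⟨Y, hYV, hY⟩ := hs.small V 𝒵 hc fun z hz => hz.2
  refine ⟨p' ∪ (p ∩ Y), ?_, subset_union_left, union_subset hpp inter_subset_left,
    fun w hw => ⟨?_, ?_⟩⟩
  · rw [Ultrafilter.union_mem_iff]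
    rintro (h | h)
    · exact hp' h
    · exact hYV (mem_of_superset h inter_subset_right)
  · intro h
    by_contra hn
    rw [not_le_iff] at hn
    have := (hY (p \ w) ⟨Or.inl ⟨w, hw, rfl⟩, hn⟩).1
    refine not_le_iff.2 (this.mono ?_) h
    rintro x ⟨⟨h1, h2⟩, h3⟩
    exact ⟨Or.inr ⟨h1, h3⟩, h2⟩
  · intro h
    by_contra hn
    rw [not_le_iff] at hn
    have := (hY (w \ p') ⟨Or.inr ⟨w, hw, rfl⟩, hn⟩).2
    refine not_le_iff.2 (this.mono ?_) h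
    rintro x ⟨⟨h1, h2⟩, h3⟩
    refine ⟨h1, ?_⟩
    rintro (h4 | h4)
    · exact h2 h4
    · exact h3 h4.2

end

section
variable {α T : Type} [LinearOrder T]

/-- the pairwise invariant of the recursion -/
def Rel (F : Filter α) (V : Ultrafilter α) (b c : Set α × Set α × T) : Prop :=
  b.1 ∉ V ∧ b.2.1 ∉ V ∧ (Le F c.1 b.1 → Le F b.2.1 c.2.1 → b = c) ∧
    (Le F c.1 b.2.1 → c.2.2 < b.2.2)

/-- the invariant of the recursion -/
def Inv (F : Filter α) (V : Ultrafilter α) (S : Set (Set α × Set α × T)) : Prop :=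
  ∀ b ∈ S, ∀ c ∈ S, Rel F V b c

variable {F : Filter α} {V : Ultrafilter α}

theorem create (hs : Splits F) {S : Set (Set α × Set α × T)} (hS : #S < 𝔠) (hI : Inv F V S)
    {p' p q q' : Set α} (hpp : p' ⊆ p) (hqq : q ⊆ q') (hp' : p' ∉ V) (hq : q ∉ V)
    (h1 : ∀ c ∈ S, ¬ (Le F c.1 p' ∧ Le F q' c.2.1))
    (h2 : ∀ c ∈ S, ¬ (Le F p c.1 ∧ Le F c.2.1 q)) (r : T)
    (hin : ∀ c ∈ S, Le F p c.2.1 → r < c.2.2) (hout : ∀ c ∈ S, Le F c.1 q → c.2.2 < r)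
    (hself : ¬ Le F p q) :
    ∃ y y' : Set α, p' ⊆ y ∧ y ⊆ p ∧ q ⊆ y' ∧ y' ⊆ q' ∧ Inv F V (insert (y, y', r) S) := by
  set 𝒲 : Set (Set α) := ((fun c => c.1) '' S) ∪ ((fun c => c.2.1) '' S) with h𝒲
  have hc : #𝒲 < 𝔠 := mk_union_lt (mk_image_lt hS _) (mk_image_lt hS _)
  have m1 : ∀ c ∈ S, c.1 ∈ 𝒲 := fun c hc => Or.inl ⟨c, hc, rfl⟩
  have m2 : ∀ c ∈ S, c.2.1 ∈ 𝒲 := fun c hc => Or.inr ⟨c, hc, rfl⟩
  obtain ⟨y, hyV, hy1, hy2, hy⟩ := hs.gen V (insert q 𝒲) (mk_insert_lt hc q) hpp hp'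
  obtain ⟨y', hy'V, hy'1, hy'2, hy'⟩ := hs.gen V (insert y 𝒲) (mk_insert_lt hc y) hqq hq
  refine ⟨y, y', hy1, hy2, hy'1, hy'2, ?_⟩
  rintro b (rfl | hb) c (rfl | hc)
  · refine ⟨hyV, hy'V, fun _ _ => rfl, fun h => ?_⟩
    exact absurd ((hy q (mem_insert _ _)).1 ((hy' y (mem_insert _ _)).2 h)) hself
  · refine ⟨hyV, hy'V, fun h h' => ?_, fun h => ?_⟩
    · exact absurd ⟨(hy _ (Or.inr (m1 c hc))).2 h, (hy' _ (Or.inr (m2 c hc))).1 h'⟩ (h1 c hc)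
    · exact hout c hc ((hy' _ (Or.inr (m1 c hc))).2 h)
  · refine ⟨(hI b hb b hb).1, (hI b hb b hb).2.1, fun h h' => ?_, fun h => ?_⟩
    · exact absurd ⟨(hy _ (Or.inr (m1 b hb))).1 h, (hy' _ (Or.inr (m2 b hb))).2 h'⟩ (h2 b hb)
    · exact hin b hb ((hy _ (Or.inr (m2 b hb))).1 h)
  · exact hI b hb c hc

theorem step3 (hs : Splits F) (hV : (V : Filter α) ≤ F) {S : Set (Set α × Set α × T)}
    (hS : #S < 𝔠) (hI : Inv F V S) {t : T} (ht : ∀ c ∈ S, c.2.2 < t)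
    {a a' b b' : Set α} (hab : a ⊆ b) (hab' : a' ⊆ b') (hb : b ∈ V) (ha : a ∉ V) (ha' : a' ∉ V)
    (h1 : ∀ c ∈ S, ¬ (Le F c.1 bᶜ ∧ Le F b' c.2.1)) :
    ∃ c : Set α × Set α × T, Inv F V (insert c S) ∧ c.2.2 ≤ t ∧
      a ⊆ c.1ᶜ ∧ c.1ᶜ ⊆ b ∧ a' ⊆ c.2.1 ∧ c.2.1 ⊆ b' := by
  have hac : aᶜ ∈ V := Ultrafilter.compl_mem_iff_notMem.2 ha
  obtain ⟨y, y', e1, e2, e3, e4, e5⟩ := create hs hS hI (compl_subset_compl.2 hab) hab'
    (Ultrafilter.compl_notMem_iff.2 hb) ha' h1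
    (fun c hc h => (hI c hc c hc).1 (h.1.mem hV hac)) t
    (fun c hc h => absurd (h.mem hV hac) (hI c hc c hc).2.1) (fun c hc _ => ht c hc)
    (fun h => ha' (h.mem hV hac))
  exact ⟨(y, y', t), e5, le_rfl, subset_compl_comm.1 e2, compl_subset_comm.1 e1, e3, e4⟩

theorem step1 (hs : Splits F) (hV : (V : Filter α) ≤ F) {S : Set (Set α × Set α × T)}
    (hS : #S < 𝔠) (hI : Inv F V S) {t : T} (ht : ∀ c ∈ S, c.2.2 < t)
    {a a' b b' : Set α} (hab : a ⊆ b) (hab' : a' ⊆ b') (hb : b ∈ V) (ha' : a' ∉ V) :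
    ∃ c : Set α × Set α × T, Inv F V (insert c S) ∧ c.2.2 ≤ t ∧
      Sat F c.1ᶜ c.2.1 a a' b b' := by
  by_cases h1 : ∃ c ∈ S, Le F c.1 bᶜ ∧ Le F b' c.2.1
  · obtain ⟨c, hc, e1, e2⟩ := h1
    exact ⟨c, by rwa [insert_eq_of_mem hc], (ht c hc).le, Or.inr (Or.inl ⟨e1.compl_right, e2⟩)⟩
  have h1' : ∀ c ∈ S, ¬ (Le F c.1 bᶜ ∧ Le F b' c.2.1) := fun c hc h => h1 ⟨c, hc, h⟩
  by_cases h2 : ∃ c ∈ S, Le F aᶜ c.1 ∧ Le F c.2.1 a'
  · obtain ⟨c, hc, e1, e2⟩ := h2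
    exact ⟨c, by rwa [insert_eq_of_mem hc], (ht c hc).le, Or.inl ⟨e1.compl_left, e2⟩⟩
  have h2' : ∀ c ∈ S, ¬ (Le F aᶜ c.1 ∧ Le F c.2.1 a') := fun c hc h => h2 ⟨c, hc, h⟩
  by_cases ha : a ∈ V
  swap
  · obtain ⟨c, e0, e, e1, e2, e3, e4⟩ := step3 hs hV hS hI ht hab hab' hb ha ha' h1'
    exact ⟨c, e0, e, Or.inr (Or.inr ⟨.of_subset e1, .of_subset e2, .of_subset e3, .of_subset e4⟩)⟩
  by_cases h3 : ∃ γ ∈ S, Le F γ.1 aᶜ ∧ Le F a' γ.2.1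
  · obtain ⟨γ, hγ, g1, g2⟩ := h3
    obtain ⟨y, y', e1, e2, e3, e4, e5⟩ := create hs hS hI (compl_subset_compl.2 hab) hab'
      (Ultrafilter.compl_notMem_iff.2 hb) ha' h1' h2' γ.2.2
      (fun c hc h => (hI c hc γ hγ).2.2.2 (g1.trans h))
      (fun c hc h => (hI γ hγ c hc).2.2.2 (h.trans g2))
      (fun h => lt_irrefl _ ((hI γ hγ γ hγ).2.2.2 (g1.trans (h.trans g2))))
    exact ⟨(y, y', γ.2.2), e5, (ht γ hγ).le, Or.inr (Or.inr
      ⟨.of_subset (subset_compl_comm.1 e2), .of_subset (compl_subset_comm.1 e1), .of_subset e3,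
        .of_subset e4⟩)⟩
  · obtain ⟨c, e0, e, -, e2, -, e4⟩ := step3 hs hV hS hI ht (empty_subset a) (Subset.refl a') ha
      Ultrafilter.empty_notMem ha' (fun c hc h => h3 ⟨c, hc, h⟩)
    exact ⟨c, e0, e, Or.inl ⟨.of_subset e2, .of_subset e4⟩⟩

theorem step2 (hs : Splits F) (hV : (V : Filter α) ≤ F) {S : Set (Set α × Set α × T)}
    (hS : #S < 𝔠) (hI : Inv F V S) {t : T} (ht : ∀ c ∈ S, c.2.2 < t)
    {a a' : Set α} (b b' : Set α) (ha : a ∈ V) (ha' : a' ∈ V) :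
    ∃ c : Set α × Set α × T, Inv F V (insert c S) ∧ c.2.2 ≤ t ∧
      Sat F c.1ᶜ c.2.1 a a' b b' := by
  obtain ⟨c, e0, e, -, e2, -, e4⟩ := step3 hs hV hS hI ht (empty_subset a) (empty_subset a') ha
    Ultrafilter.empty_notMem Ultrafilter.empty_notMem
    (fun c hc h => (hI c hc c hc).2.1 (h.2.mem hV ha'))
  exact ⟨c, e0, e, Or.inl ⟨.of_subset e2, .of_subset e4⟩⟩

theorem step (hs : Splits F) (hV : (V : Filter α) ≤ F) {S : Set (Set α × Set α × T)}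
    (hS : #S < 𝔠) (hI : Inv F V S) {t : T} (ht : ∀ c ∈ S, c.2.2 < t)
    {a a' b b' : Set α} (hab : a ⊆ b) (hab' : a' ⊆ b') :
    ∃ c : Set α × Set α × T, Inv F V (insert c S) ∧ c.2.2 ≤ t ∧
      (Sat F c.1ᶜ c.2.1 a a' b b' ∨ Sat F c.1 c.2.1ᶜ a a' b b') := by
  have dual : ∀ c : Set α × Set α × T, Sat F c.1ᶜ c.2.1 bᶜ b'ᶜ aᶜ a'ᶜ →
      Sat F c.1 c.2.1ᶜ a a' b b' := fun c h => by simpa using h.compl
  by_cases h1 : b ∈ V ∧ a' ∉ V
  · obtain ⟨c, e1, e2, e3⟩ := step1 hs hV hS hI ht hab hab' h1.1 h1.2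
    exact ⟨c, e1, e2, Or.inl e3⟩
  by_cases h2 : a ∉ V ∧ b' ∈ V
  · obtain ⟨c, e1, e2, e3⟩ := step1 hs hV hS hI ht (compl_subset_compl.2 hab)
      (compl_subset_compl.2 hab') (Ultrafilter.compl_mem_iff_notMem.2 h2.1)
      (Ultrafilter.compl_notMem_iff.2 h2.2)
    exact ⟨c, e1, e2, Or.inr (dual c e3)⟩
  by_cases h3 : a ∈ V ∧ a' ∈ V
  · obtain ⟨c, e1, e2, e3⟩ := step2 hs hV hS hI ht b b' h3.1 h3.2
    exact ⟨c, e1, e2, Or.inl e3⟩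
  have hb : b ∉ V ∧ b' ∉ V := by
    have i1 : a ∈ V → b ∈ V := fun h => mem_of_superset h hab
    have i2 : a' ∈ V → b' ∈ V := fun h => mem_of_superset h hab'
    tauto
  obtain ⟨c, e1, e2, e3⟩ := step2 hs hV hS hI ht aᶜ a'ᶜ (Ultrafilter.compl_mem_iff_notMem.2 hb.1)
    (Ultrafilter.compl_mem_iff_notMem.2 hb.2)
  exact ⟨c, e1, e2, Or.inr (dual c e3)⟩

end

/-- The family of active classes. -/
theorem exists_active {α : Type} [Countable α] {F : Filter α} {V : Ultrafilter α} (hs : Splits F)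
    (hV : (V : Filter α) ≤ F) :
    ∃ 𝒜 : Set (Set α × Set α), (∀ c ∈ 𝒜, c.1 ∉ V ∧ c.2 ∉ V) ∧
      (∀ b ∈ 𝒜, ∀ c ∈ 𝒜, Le F c.1 b.1 → Le F b.2 c.2 → b = c) ∧
      (∀ c : ℕ → Set α × Set α, (∀ j, c j ∈ 𝒜) → ¬ ∀ j, Le F (c (j + 1)).1 (c j).2) ∧
      ∀ a a' b b' : Set α, a ⊆ b → a' ⊆ b' →
        ∃ c ∈ 𝒜, Sat F c.1ᶜ c.2 a a' b b' ∨ Sat F c.1 c.2ᶜ a a' b b' := by
  let T : Type := (𝔠 : Cardinal.{0}).ord.ToType
  have hT : #T = 𝔠 := by simp [T]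
  have hIio : ∀ t : T, #(Iio t) < 𝔠 := fun t => mk_Iio_toType_ord_lt t
  have hset : #(Set α) ≤ 𝔠 := by
    rw [mk_set, ← two_power_aleph0]
    exact power_le_power_left two_ne_zero mk_le_aleph0
  have hreq : #(Set α × Set α × Set α × Set α) ≤ #T := by
    rw [hT]
    simp only [mk_prod, lift_id]
    calc _ ≤ 𝔠 * (𝔠 * (𝔠 * 𝔠)) := by gcongr
      _ = 𝔠 := by simp
  obtain ⟨emb⟩ := Cardinal.le_def _ _ |>.1 hreq
  let req : T → Set α × Set α × Set α × Set α := Function.invFun emb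
  have hsurj : Function.Surjective req := Function.invFun_surjective emb.injective
  obtain ⟨f, hf⟩ := exists_rec (T := T) (β := Set α × Set α × T)
    (fun t S c => #S < 𝔠 → Inv F V S → (∀ c ∈ S, c.2.2 < t) →
      Inv F V (insert c S) ∧ c.2.2 ≤ t ∧ ((req t).1 ⊆ (req t).2.2.1 → (req t).2.1 ⊆ (req t).2.2.2 →
        (Sat F c.1ᶜ c.2.1 (req t).1 (req t).2.1 (req t).2.2.1 (req t).2.2.2 ∨
          Sat F c.1 c.2.1ᶜ (req t).1 (req t).2.1 (req t).2.2.1 (req t).2.2.2))) (by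
    intro t S
    by_cases h : #S < 𝔠 ∧ Inv F V S ∧ (∀ c ∈ S, c.2.2 < t)
    · by_cases h' : (req t).1 ⊆ (req t).2.2.1 ∧ (req t).2.1 ⊆ (req t).2.2.2
      · obtain ⟨c, e1, e2, e3⟩ := step hs hV h.1 h.2.1 h.2.2 h'.1 h'.2
        exact ⟨c, fun _ _ _ => ⟨e1, e2, fun _ _ => e3⟩⟩
      · obtain ⟨c, e1, e2, -⟩ := step hs hV h.1 h.2.1 h.2.2 (Subset.refl ∅) (Subset.refl ∅)
        exact ⟨c, fun _ _ _ => ⟨e1, e2, fun h1 h2 => absurd ⟨h1, h2⟩ h'⟩⟩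
    · exact ⟨(∅, ∅, t), fun h1 h2 h3 => absurd ⟨h1, h2, h3⟩ h⟩)
  have pair : ∀ U : Set T, (∀ s ∈ U, Inv F V (insert (f s) (f '' Iio s))) → Inv F V (f '' U) := by
    rintro U hU _ ⟨s, hs, rfl⟩ _ ⟨s', hs', rfl⟩
    rcases lt_trichotomy s s' with h | h | h
    · exact hU s' hs' _ (Or.inr ⟨s, h, rfl⟩) _ (Or.inl rfl)
    · subst h
      exact hU s hs _ (Or.inl rfl) _ (Or.inl rfl)
    · exact hU s hs _ (Or.inl rfl) _ (Or.inr ⟨s', h, rfl⟩)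
  have main : ∀ t : T, Inv F V (insert (f t) (f '' Iio t)) ∧ (f t).2.2 ≤ t ∧
      ((req t).1 ⊆ (req t).2.2.1 → (req t).2.1 ⊆ (req t).2.2.2 →
        (Sat F (f t).1ᶜ (f t).2.1 (req t).1 (req t).2.1 (req t).2.2.1 (req t).2.2.2 ∨
          Sat F (f t).1 (f t).2.1ᶜ (req t).1 (req t).2.1 (req t).2.2.1 (req t).2.2.2)) := by
    intro t
    induction t using WellFoundedLT.induction with
    | ind t ih =>
      refine hf t (mk_image_lt (hIio t) f) (pair _ fun s hs => (ih s hs).1) ?_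
      rintro _ ⟨s, hs, rfl⟩
      exact (ih s hs).2.1.trans_lt hs
  have hall : Inv F V (f '' univ) := pair _ fun s _ => (main s).1
  have hall' : ∀ s s', Rel F V (f s) (f s') := fun s s' =>
    hall _ ⟨s, trivial, rfl⟩ _ ⟨s', trivial, rfl⟩
  refine ⟨range fun s => ((f s).1, (f s).2.1), ?_, ?_, ?_, ?_⟩
  · rintro _ ⟨s, rfl⟩
    exact ⟨(hall' s s).1, (hall' s s).2.1⟩
  · rintro _ ⟨s, rfl⟩ _ ⟨s', rfl⟩ h1 h2
    have := (hall' s s').2.2.1 h1 h2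
    simp only [this]
  · intro c hc h
    choose s hs using hc
    have hlt : ∀ j, (f (s (j + 1))).2.2 < (f (s j)).2.2 := by
      intro j
      have := h j
      rw [← hs, ← hs] at this
      exact (hall' _ _).2.2.2 this
    exact (RelEmbedding.natGT (fun j => (f (s j)).2.2) hlt).not_wellFounded wellFounded_lt
  · intro a a' b b' h1 h2
    obtain ⟨t, ht⟩ := hsurj (a, a', b, b')
    have := (main t).2.2
    rw [ht] at this
    exact ⟨_, ⟨t, rfl⟩, this h1 h2⟩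

end Crest.Agent.R53
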