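import Crest.Agent.R53.Top

/-! Window systems and the block-density-zero ideal. -/

set_option autoImplicit false
open Set Filter Topology

namespace Crest.Agent.R53

/-- A partition of `G` into finite windows with a fast growing normalisation. -/
structure Win (G : Type) where
  w : G → ℕ
  W : ℕ → Finset G
  mem_W : ∀ n x, x ∈ W n ↔ w x = n
  N : ℕ → ℕ
  pos : ∀ n, 0 < N n
  mono : Monotone N
  grow : Tendsto (fun n => ((∑ m ∈ Finset.range n, ((W m).card : ℝ)) + 1) / N n) atTop (𝓝 0)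

namespace Win
variable {G : Type} (Ω : Win G)

open Classical in
/-- number of points of `Z` in window `n` -/
noncomputable def cnt (Z : Set G) (n : ℕ) : ℕ := ((Ω.W n).filter (· ∈ Z)).card

theorem cnt_mono' {Y Z : Set G} {n : ℕ} (h : ∀ x, Ω.w x = n → x ∈ Y → x ∈ Z) :
    Ω.cnt Y n ≤ Ω.cnt Z n := by
  classical
  unfold cnt
  apply Finset.card_le_card
  intro x hx
  simp only [Finset.mem_filter, Ω.mem_W] at hx ⊢
  exact ⟨hx.1, h x hx.1 hx.2⟩

theorem cnt_mono {Y Z : Set G} (h : Y ⊆ Z) (n : ℕ) : Ω.cnt Y n ≤ Ω.cnt Z n :=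
  Ω.cnt_mono' fun _ _ hx => h hx

theorem cnt_congr {Y Z : Set G} {n : ℕ} (h : ∀ x, Ω.w x = n → (x ∈ Y ↔ x ∈ Z)) :
    Ω.cnt Y n = Ω.cnt Z n :=
  le_antisymm (Ω.cnt_mono' fun x hx => (h x hx).1) (Ω.cnt_mono' fun x hx => (h x hx).2)

theorem cnt_le (Z : Set G) (n : ℕ) : Ω.cnt Z n ≤ (Ω.W n).card := by
  classical
  exact Finset.card_filter_le _ _

theorem cnt_empty (n : ℕ) : Ω.cnt ∅ n = 0 := by
  simp [cnt]

theorem cnt_union_disj {Y Z : Set G} (h : Disjoint Y Z) (n : ℕ) :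
    Ω.cnt (Y ∪ Z) n = Ω.cnt Y n + Ω.cnt Z n := by
  classical
  unfold cnt
  rw [← Finset.card_union_of_disjoint]
  · congr 1
    ext x
    simp only [Finset.mem_filter, Finset.mem_union, mem_union]
    tauto
  · rw [Finset.disjoint_left]
    intro x hx hx'
    simp only [Finset.mem_filter] at hx hx'
    exact disjoint_left.1 h hx.2 hx'.2

theorem cnt_le_add (X Y : Set G) (n : ℕ) : Ω.cnt Y n ≤ Ω.cnt X n + Ω.cnt (Y \ X) n := by
  rw [← Ω.cnt_union_disj disjoint_sdiff_right]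
  apply Ω.cnt_mono
  intro x hx
  by_cases h : x ∈ X
  · exact Or.inl h
  · exact Or.inr ⟨hx, h⟩

theorem cnt_union_le (Y Z : Set G) (n : ℕ) : Ω.cnt (Y ∪ Z) n ≤ Ω.cnt Y n + Ω.cnt Z n := by
  refine (Ω.cnt_le_add Y _ n).trans (Nat.add_le_add_left (Ω.cnt_mono ?_ n) _)
  rintro x ⟨h | h, h'⟩
  · exact absurd h h'
  · exact h

theorem cnt_singleton (e : G) (n : ℕ) : Ω.cnt {e} n = if Ω.w e = n then 1 else 0 := by
  classical
  unfold cnt
  split_ifs with h
  · rw [Finset.card_eq_one]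
    refine ⟨e, ?_⟩
    ext x
    simp only [Finset.mem_filter, Ω.mem_W, mem_singleton_iff, Finset.mem_singleton]
    constructor
    · exact fun h => h.2
    · rintro rfl; exact ⟨h, rfl⟩
  · rw [Finset.card_eq_zero]
    ext x
    simp only [Finset.mem_filter, Ω.mem_W, mem_singleton_iff, Finset.notMem_empty, iff_false]
    rintro ⟨h1, rfl⟩
    exact h h1

/-- density zero -/
def Null (Z : Set G) : Prop := Tendsto (fun n => (Ω.cnt Z n : ℝ) / Ω.N n) atTop (𝓝 0)

theorem Npos (n : ℕ) : (0 : ℝ) < Ω.N n := by exact_mod_cast Ω.pos n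

theorem null_of_le {Z : Set G} {u : ℕ → ℝ} (hu : Tendsto u atTop (𝓝 0))
    (h : ∀ n, (Ω.cnt Z n : ℝ) ≤ u n * Ω.N n) : Ω.Null Z := by
  refine squeeze_zero (fun n => by positivity) (fun n => ?_) hu
  rw [div_le_iff₀ (Ω.Npos n)]
  exact h n

/-- the dual filter of the density zero ideal -/
def F : Filter G := Filter.comk Ω.Null
  (by simp [Null, cnt_empty])
  (fun t ht s hs => squeeze_zero (fun n => by positivity)
    (fun n => div_le_div_of_nonneg_right (by exact_mod_cast Ω.cnt_mono hs n) (Ω.Npos n).le) ht)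
  (fun s hs t ht => by
    have := Tendsto.add hs ht
    rw [add_zero] at this
    refine squeeze_zero (fun n => by positivity) (fun n => ?_) this
    rw [← add_div]
    exact div_le_div_of_nonneg_right (by exact_mod_cast Ω.cnt_union_le s t n) (Ω.Npos n).le)

theorem mem_F {s : Set G} : s ∈ Ω.F ↔ Ω.Null sᶜ := Iff.rfl

theorem le_iff {a b : Set G} : Le Ω.F a b ↔ Ω.Null (a \ b) := by
  unfold Le
  rw [Filter.Eventually, mem_F]
  have : {x | x ∈ a → x ∈ b}ᶜ = a \ b := by
    ext x; simp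
  rw [this]

theorem freq_iff {z : Set G} : (∃ᶠ x in Ω.F, x ∈ z) ↔ ¬ Ω.Null z := by
  unfold Filter.Frequently
  rw [Filter.Eventually, mem_F]
  have : {x | ¬ x ∈ z}ᶜ = z := by
    ext x; simp
  rw [this]

theorem exists_eps {D : Set G} (h : ¬ Ω.Null D) :
    ∃ ε : ℝ, 0 < ε ∧ ∃ᶠ n in atTop, ε * Ω.N n ≤ Ω.cnt D n := by
  by_contra hn
  push Not at hn
  apply h
  rw [Null, tendsto_order]
  refine ⟨fun a ha => Eventually.of_forall fun n => ha.trans_le (by positivity), fun a ha => ?_⟩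
  filter_upwards [hn a ha] with n hn
  rwa [div_lt_iff₀ (Ω.Npos n)]

theorem inv_N : Tendsto (fun n => (1 : ℝ) / Ω.N n) atTop (𝓝 0) := by
  refine squeeze_zero (fun n => by positivity) (fun n => ?_) Ω.grow
  refine div_le_div_of_nonneg_right ?_ (Ω.Npos n).le
  have : (0 : ℝ) ≤ ∑ m ∈ Finset.range n, ((Ω.W m).card : ℝ) := by positivity
  linarith

end Win

theorem exists_env {u : ℕ → ℝ} (hu : Tendsto u atTop (𝓝 0)) :
    ∃ γ : ℕ → ℝ, Tendsto γ atTop (𝓝 0) ∧ (∀ M, 0 ≤ γ M) ∧ ∀ M n, M ≤ n → u n ≤ γ M := by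
  have hb : BddAbove (range fun n => |u n|) := hu.abs.bddAbove_range
  have hb' : ∀ M : ℕ, BddAbove (range fun n : Ici M => |u n|) := fun M =>
    hb.mono (by rintro _ ⟨n, rfl⟩; exact ⟨n, rfl⟩)
  have hle : ∀ M n : ℕ, M ≤ n → |u n| ≤ ⨆ n : Ici M, |u n| := fun M n h =>
    le_ciSup (hb' M) ⟨n, h⟩
  have h0 : ∀ M : ℕ, 0 ≤ ⨆ n : Ici M, |u n| := fun M => (abs_nonneg _).trans (hle M M le_rfl)
  refine ⟨fun M => ⨆ n : Ici M, |u n|, ?_, h0, fun M n h => (le_abs_self _).trans (hle M n h)⟩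
  rw [tendsto_order]
  refine ⟨fun a ha => Eventually.of_forall fun n => ha.trans_le (h0 n), fun a ha => ?_⟩
  have h1 : ∀ᶠ n in atTop, |u n| < a / 2 := by
    have := hu.abs
    rw [abs_zero] at this
    exact this.eventually (gt_mem_nhds (half_pos ha))
  obtain ⟨M₀, hM₀⟩ := eventually_atTop.1 h1
  filter_upwards [eventually_ge_atTop M₀] with M hM
  refine lt_of_le_of_lt (ciSup_le fun n => (hM₀ n (hM.trans n.2)).le) (half_lt_self ha)

namespace Win
variable {G : Type} (Ω : Win G)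

/-- every positive set contains a null set which is large in many windows -/
theorem diag {D : Set G} (hD : ¬ Ω.Null D) {δ : ℕ → ℝ} (hδ : Tendsto δ atTop (𝓝 0)) :
    ∃ Z ⊆ D, Ω.Null Z ∧ ∀ᶠ M in atTop, ∃ n, M ≤ n ∧ δ M * Ω.N n ≤ Ω.cnt Z n := by
  classical
  obtain ⟨ε, hε, hP⟩ := Ω.exists_eps hD
  obtain ⟨γ, hγ, hγ0, hγle⟩ := exists_env hδ
  set P : ℕ → Prop := fun n => ε * Ω.N n ≤ Ω.cnt D n with hPdef
  have hinf : {n | P n}.Infinite := Nat.frequently_atTop_iff_infinite.1 hP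
  have hcount : Tendsto (Nat.count P) atTop atTop := by
    refine tendsto_atTop_atTop_of_monotone (Nat.count_monotone P) fun b => ⟨Nat.nth P b, ?_⟩
    rw [Nat.count_nth_of_infinite hinf]
  set η : ℕ → ℝ := fun n => γ (Nat.count P n) with hη
  have hη0 : Tendsto η atTop (𝓝 0) := hγ.comp hcount
  have hT : ∀ n, ∃ T ⊆ (Ω.W n).filter (· ∈ D), T.card = min (Ω.cnt D n) ⌈η n * Ω.N n⌉₊ := by
    intro n
    apply Finset.exists_subset_card_eq
    refine (min_le_left _ _).trans (le_of_eq ?_)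
    unfold cnt
    congr
  choose T hT hTc using hT
  have hZ : ∀ n, Ω.cnt (⋃ m, (T m : Set G)) n = (T n).card := by
    intro n
    unfold cnt
    congr 1
    ext x
    simp only [Finset.mem_filter, mem_iUnion, Finset.mem_coe]
    constructor
    · rintro ⟨h1, m, h2⟩
      have h3 := (Finset.mem_filter.1 (hT m h2)).1
      rw [Ω.mem_W] at h1 h3
      rw [← h1, h3]
      exact h2
    · intro h
      exact ⟨(Finset.mem_filter.1 (hT n h)).1, n, h⟩
  refine ⟨⋃ m, (T m : Set G), ?_, ?_, ?_⟩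
  · intro x hx
    obtain ⟨m, hm⟩ := mem_iUnion.1 hx
    exact (Finset.mem_filter.1 (hT m hm)).2
  · have := hη0.add Ω.inv_N
    rw [add_zero] at this
    refine Ω.null_of_le this fun n => ?_
    rw [hZ, hTc, add_mul, one_div, inv_mul_cancel₀ (Ω.Npos n).ne']
    have h1 : ((min (Ω.cnt D n) ⌈η n * Ω.N n⌉₊ : ℕ) : ℝ) ≤ ⌈η n * Ω.N n⌉₊ := by
      exact_mod_cast min_le_right _ _
    exact h1.trans (Nat.ceil_lt_add_one (mul_nonneg (hγ0 _) (Ω.Npos n).le)).le
  · filter_upwards [hδ.eventually (ge_mem_nhds hε)] with M hM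
    have hex : ∃ n, M ≤ n ∧ P n := by
      obtain ⟨n, h1, h2⟩ := frequently_atTop.1 hP M
      exact ⟨n, h1, h2⟩
    refine ⟨Nat.find hex, (Nat.find_spec hex).1, ?_⟩
    set n := Nat.find hex with hn
    have hc : Nat.count P n ≤ M := by
      rw [Nat.count_eq_card_filter_range]
      calc _ ≤ (Finset.range M).card := by
            apply Finset.card_le_card
            intro m hm
            rw [Finset.mem_filter, Finset.mem_range] at hm
            rw [Finset.mem_range]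
            by_contra h
            exact Nat.find_min hex hm.1 ⟨not_lt.1 h, hm.2⟩
        _ = M := Finset.card_range M
    rw [hZ, hTc, Nat.cast_min]
    refine le_min ?_ ?_
    · exact (mul_le_mul_of_nonneg_right hM (Ω.Npos n).le).trans (Nat.find_spec hex).2
    · exact (mul_le_mul_of_nonneg_right (hγle _ _ hc) (Ω.Npos n).le).trans (Nat.le_ceil _)

end Win

end Crest.Agent.R53
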